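import Vale.Agent.P266.Defs

namespace Vale.Agent.P266

open MvPolynomial

variable {A : Type} [CommRing A] [Algebra S A] [Algebra ℂ A] [IsScalarTower ℂ S A]

theorem dom_exists_pow {R : Type} [CommRing R] {I p : Ideal R} (hp : p ∈ I.minimalPrimes)
    {x : R} (hxp : x ∈ p) : ∃ n : ℕ, ∃ t, t ∉ p ∧ t * x ^ n ∈ I := by
  obtain ⟨⟨hp₁, hp₂⟩, hp₃⟩ := hp
  have : p.map (algebraMap R (Localization.AtPrime p)) ≤ (I.map (algebraMap _ _)).radical := by
    rw [Ideal.radical_eq_sInf, le_sInf_iff]
    rintro q ⟨hq', hq⟩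
    obtain ⟨h₁, h₂⟩ := ((IsLocalization.AtPrime.orderIsoOfPrime _ p) ⟨q, hq⟩).2
    rw [Ideal.map_le_iff_le_comap] at hq' ⊢
    exact hp₃ ⟨h₁, hq'⟩ h₂
  obtain ⟨n, hn⟩ := this (Ideal.mem_map_of_mem _ hxp)
  rw [IsLocalization.mem_map_algebraMap_iff (M := p.primeCompl)] at hn
  obtain ⟨⟨a, b⟩, hn⟩ := hn
  rw [← map_pow, ← map_mul, IsLocalization.eq_iff_exists p.primeCompl] at hn
  obtain ⟨t, ht⟩ := hn
  refine ⟨n, t * b, (t * b).2, ?_⟩
  simp only at ht
  have h : (t.1 * b.1) * x ^ n = t.1 * a := by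
    rw [← ht]; ring
  rw [h]
  exact I.mul_mem_left _ a.2

omit [Algebra S A] [IsScalarTower ℂ S A] in
theorem dom_nat_notMem {P : Ideal A} (hP : P.IsPrime) (n : ℕ) : ((n + 1 : ℕ) : A) ∉ P := by
  intro h
  apply hP.ne_top
  have hu : IsUnit ((n + 1 : ℕ) : A) := by
    have h1 : ((n + 1 : ℕ) : ℂ) ≠ 0 := Nat.cast_ne_zero.mpr (Nat.succ_ne_zero n)
    have h2 := (IsUnit.mk0 _ h1).map (algebraMap ℂ A)
    rwa [map_natCast] at h2
  exact Ideal.eq_top_of_isUnit_mem _ h hu

omit [Algebra S A] [IsScalarTower ℂ S A] in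
theorem dom_minimal_stable {K P : Ideal A} (hP : P ∈ K.minimalPrimes) (d : Derivation ℂ A A)
    (hK : ∀ u ∈ K, d u ∈ K) {x : A} (hx : x ∈ P) : d x ∈ P := by
  have hpr : P.IsPrime := hP.1.1
  have hle : K ≤ P := hP.1.2
  by_contra hdx
  have key : ∀ n : ℕ, ∀ t, t ∉ P → t * x ^ n ∉ K := by
    intro n
    induction n with
    | zero =>
      intro t ht h
      rw [pow_zero, mul_one] at h
      exact ht (hle h)
    | succ n ih =>
      intro t ht h
      have h1 := hK _ h
      have h2 : d (t * x ^ (n + 1)) = t * (((n + 1 : ℕ) : A) * x ^ n * d x) + x ^ (n + 1) * d t := by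
        rw [Derivation.leibniz, Derivation.leibniz_pow]
        simp only [smul_eq_mul, nsmul_eq_mul, Nat.add_sub_cancel]
        ring
      have h3 : (t * t * (((n + 1 : ℕ) : A) * d x)) * x ^ n
          = t * d (t * x ^ (n + 1)) - d t * (t * x ^ (n + 1)) := by
        rw [h2]; ring
      apply ih (t * t * (((n + 1 : ℕ) : A) * d x))
      · intro hm
        rcases hpr.mem_or_mem hm with hm | hm
        · rcases hpr.mem_or_mem hm with hm | hm <;> exact ht hm
        · rcases hpr.mem_or_mem hm with hm | hm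
          · exact dom_nat_notMem hpr n hm
          · exact hdx hm
      · rw [h3]
        exact K.sub_mem (K.mul_mem_left _ h1) (K.mul_mem_left _ h)
  obtain ⟨n, t, ht, h⟩ := dom_exists_pow hP hx
  exact key n t ht h

theorem dom_totalDegree_pderiv (s : S) (i : Fin 2) (n : ℕ) (h : s.totalDegree ≤ n + 1) :
    (pderiv i s).totalDegree ≤ n := by
  rw [totalDegree, Finset.sup_le_iff]
  intro m hm
  rw [mem_support_iff, coeff_pderiv] at hm
  have h1 : m + Finsupp.single i 1 ∈ s.support := by
    rw [mem_support_iff]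
    exact left_ne_zero_of_mul hm
  have h2 := le_totalDegree h1
  rw [Finsupp.sum_add_index' (fun _ => rfl) (fun _ _ _ => rfl), Finsupp.sum_single_index rfl] at h2
  omega

theorem dom_eq_C (s : S) (h : ∀ i, pderiv i s = 0) : s.totalDegree = 0 := by
  rw [totalDegree_eq_zero_iff]
  intro m hm i
  by_contra hi
  have h1 : coeff (m - Finsupp.single i 1) (pderiv i s) = 0 := by rw [h i, coeff_zero]
  rw [coeff_pderiv] at h1
  have h2 : m - Finsupp.single i 1 + Finsupp.single i 1 = m := by
    apply tsub_add_cancel_of_le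
    rw [Finsupp.single_le_iff]
    omega
  rw [h2] at h1
  rcases mul_eq_zero.mp h1 with h1 | h1
  · exact (mem_support_iff.mp hm) h1
  · exact Nat.cast_add_one_ne_zero _ h1

theorem dom_r_mem {P : Ideal A} (hP : P.IsPrime) (D : Fin 2 → Derivation ℂ A A) (r : A)
    (hD : ∀ i (s : S), D i (algebraMap S A s) = r * algebraMap S A (pderiv i s))
    (hst : ∀ i, ∀ x ∈ P, D i x ∈ P) (s0 : S) (hs0 : s0 ≠ 0) (hm : algebraMap S A s0 ∈ P) :
    r ∈ P := by
  by_contra hr
  have base : ∀ s : S, s.totalDegree = 0 → algebraMap S A s ∈ P → s = 0 := by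
    intro s hs hmem
    by_contra hne
    have h1 := totalDegree_eq_zero_iff_eq_C.mp hs
    have h2 : coeff 0 s ≠ 0 := by
      intro h
      rw [h, map_zero] at h1
      exact hne h1
    have hu : IsUnit s := by
      rw [h1]
      exact (IsUnit.mk0 _ h2).map C
    exact hP.ne_top (Ideal.eq_top_of_isUnit_mem _ hmem (hu.map (algebraMap S A)))
  have key : ∀ n : ℕ, ∀ s : S, s.totalDegree ≤ n → algebraMap S A s ∈ P → s = 0 := by
    intro n
    induction n with
    | zero => intro s hs; exact base s (Nat.le_zero.mp hs)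
    | succ n ih =>
      intro s hs hmem
      apply base s _ hmem
      apply dom_eq_C
      intro i
      apply ih _ (dom_totalDegree_pderiv s i n hs)
      have h1 := hst i _ hmem
      rw [hD] at h1
      exact (hP.mem_or_mem h1).resolve_left hr
  exact hs0 (key _ s0 le_rfl hm)

theorem dom_aeval (d : Derivation ℂ A A) (r y : A)
    (hd : ∀ s : S, ∃ e, d (algebraMap S A s) = r * e) (G : Polynomial S) :
    ∃ e, d (Polynomial.aeval y G) = r * e + Polynomial.aeval y (Polynomial.derivative G) * d y := by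
  induction G using Polynomial.induction_on' with
  | add p q hp hq =>
    obtain ⟨e1, h1⟩ := hp
    obtain ⟨e2, h2⟩ := hq
    refine ⟨e1 + e2, ?_⟩
    simp only [map_add, h1, h2]
    ring
  | monomial n s =>
    obtain ⟨e, he⟩ := hd s
    refine ⟨e * y ^ n, ?_⟩
    rw [Polynomial.derivative_monomial, Polynomial.aeval_monomial, Polynomial.aeval_monomial,
      Derivation.leibniz, Derivation.leibniz_pow, he]
    simp only [smul_eq_mul, nsmul_eq_mul, map_mul, map_natCast]
    ring

theorem dom_dy_mem {P : Ideal A} (hP : P.IsPrime) (d : Derivation ℂ A A) (r y : A)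
    (hd : ∀ s : S, ∃ e, d (algebraMap S A s) = r * e) (hst : ∀ x ∈ P, d x ∈ P) (hr : r ∈ P)
    (hy : IsIntegral S y) : d y ∈ P := by
  by_contra hdy
  have key : ∀ n : ℕ, ∀ G : Polynomial S, G.Monic → G.natDegree = n →
      Polynomial.aeval y G ∉ P := by
    intro n
    induction n with
    | zero =>
      intro G hG hn hmem
      rw [hG.natDegree_eq_zero.mp hn, map_one] at hmem
      exact hP.ne_top ((Ideal.eq_top_iff_one P).mpr hmem)
    | succ n ih =>
      intro G hG hn hmem
      obtain ⟨e, he⟩ := dom_aeval d r y hd G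
      have h1 := hst _ hmem
      rw [he] at h1
      have h2 : Polynomial.aeval y (Polynomial.derivative G) * d y ∈ P :=
        (P.add_mem_iff_right (P.mul_mem_right e hr)).mp h1
      have h3 := (hP.mem_or_mem h2).resolve_right hdy
      have hc : ((n + 1 : ℕ) : ℂ) ≠ 0 := Nat.cast_ne_zero.mpr (Nat.succ_ne_zero n)
      set c : S := C (((n + 1 : ℕ) : ℂ)⁻¹) with hcdef
      have hcoef : (Polynomial.C c * Polynomial.derivative G).coeff n = 1 := by
        rw [Polynomial.coeff_C_mul, Polynomial.coeff_derivative, ← hn, hG.coeff_natDegree, one_mul,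
          hcdef]
        have : ((n : S) + 1) = C ((n + 1 : ℕ) : ℂ) := by
          rw [map_natCast]; push_cast; rfl
        rw [this, ← map_mul, inv_mul_cancel₀ hc, map_one]
      have hdeg : (Polynomial.C c * Polynomial.derivative G).natDegree ≤ n := by
        refine (Polynomial.natDegree_C_mul_le _ _).trans ?_
        have := Polynomial.natDegree_derivative_le G
        omega
      have hmon : (Polynomial.C c * Polynomial.derivative G).Monic :=
        Polynomial.monic_of_natDegree_le_of_coeff_eq_one n hdeg hcoef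
      have hdeg' : (Polynomial.C c * Polynomial.derivative G).natDegree = n :=
        Polynomial.natDegree_eq_of_le_of_coeff_ne_zero hdeg (by rw [hcoef]; exact one_ne_zero)
      apply ih _ hmon hdeg'
      rw [map_mul]
      exact P.mul_mem_left _ h3
  obtain ⟨G, hG, hG0⟩ := hy
  apply key _ G hG rfl
  rw [Polynomial.aeval_def, hG0]
  exact P.zero_mem

omit [Algebra ℂ A] [IsScalarTower ℂ S A] in
theorem dom_exists_s [IsReduced A] (a : A) (ha : IsIntegral S a) :
    ∃ s : S, s ≠ 0 ∧ ∃ u w : A, u * a = 0 ∧ algebraMap S A s = u + w * a := by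
  obtain ⟨p, hp, hp0⟩ := ha
  obtain ⟨q, hq, hnd⟩ := Polynomial.exists_eq_pow_rootMultiplicity_mul_and_not_dvd p hp.ne_zero 0
  rw [map_zero, sub_zero] at hq hnd
  rw [Polynomial.X_dvd_iff] at hnd
  set k := Polynomial.rootMultiplicity 0 p
  have h1 : a ^ k * Polynomial.aeval a q = 0 := by
    have h := hp0
    rw [← Polynomial.aeval_def, hq, map_mul, map_pow, Polynomial.aeval_X] at h
    exact h
  have h2 : Polynomial.aeval a q * a = 0 := by
    apply IsReduced.eq_zero
    refine ⟨k + 1, ?_⟩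
    have : (Polynomial.aeval a q * a) ^ (k + 1)
        = (a ^ k * Polynomial.aeval a q) * (a * Polynomial.aeval a q ^ k) := by ring
    rw [this, h1, zero_mul]
  refine ⟨q.coeff 0, hnd, Polynomial.aeval a q, - Polynomial.aeval a q.divX, h2, ?_⟩
  have h3 := congrArg (Polynomial.aeval a) (Polynomial.divX_mul_X_add q)
  rw [map_add, map_mul, Polynomial.aeval_X, Polynomial.aeval_C] at h3
  rw [← h3]
  ring

theorem isDomain_of [IsReduced A] (hint : ∀ a : A, IsIntegral S a)
    (htf : ∀ (s : S) (a : A), s ≠ 0 → algebraMap S A s * a = 0 → a = 0)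
    (D : Fin 2 → Derivation ℂ A A) (r y f : A)
    (hD : ∀ i (s : S), D i (algebraMap S A s) = r * algebraMap S A (pderiv i s))
    (χ : A →ₐ[ℂ] ℂ) (hf : χ f ≠ 0) (hnzd : ∀ u a : A, χ u ≠ 0 → u * a = 0 → a = 0)
    (hreg : ∀ (n : ℕ) (α β : A), xx A 1 ^ n * α = xx A 0 ^ n * β →
      ∃ γ, α = xx A 0 ^ n * γ ∧ β = xx A 1 ^ n * γ)
    (N : ℕ) (hmem : ∀ j, f * xx A j ^ N ∈ Ideal.span {D 0 y, D 1 y, r}) : IsDomain A := by
  haveI : Nontrivial A := χ.toRingHom.domain_nontrivial
  have hzd : ∀ a c : A, a * c = 0 → a = 0 ∨ c = 0 := by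
    intro a c hac
    let I : Ideal A :=
      { carrier := {u | u * a = 0}
        add_mem' := by
          intro u v hu hv
          simp only [Set.mem_setOf_eq] at hu hv ⊢
          rw [add_mul, hu, hv, add_zero]
        zero_mem' := zero_mul a
        smul_mem' := by
          intro w u hu
          simp only [Set.mem_setOf_eq, smul_eq_mul] at hu ⊢
          rw [mul_assoc, hu, mul_zero] }
    let J : Ideal A :=
      { carrier := {u | ∀ i, i * a = 0 → u * i = 0}
        add_mem' := by
          intro u v hu hv i hi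
          rw [add_mul, hu i hi, hv i hi, add_zero]
        zero_mem' := fun i _ => zero_mul i
        smul_mem' := by
          intro w u hu i hi
          rw [smul_eq_mul, mul_assoc, hu i hi, mul_zero] }
    have hI : ∀ u, u ∈ I ↔ u * a = 0 := fun u => Iff.rfl
    have hJ : ∀ u, u ∈ J ↔ ∀ i, i * a = 0 → u * i = 0 := fun u => Iff.rfl
    have hIst : ∀ (d : Derivation ℂ A A) u, u * a = 0 → d u * a = 0 := by
      intro d u hu
      have h1 := congrArg d hu
      rw [Derivation.leibniz, map_zero, smul_eq_mul, smul_eq_mul] at h1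
      apply IsReduced.eq_zero
      refine ⟨2, ?_⟩
      have : (d u * a) ^ 2 = d u * a * (u * d a + a * d u) - d u * d a * (u * a) := by ring
      rw [this, h1, hu]
      ring
    have hJst : ∀ (d : Derivation ℂ A A) u, u ∈ J → d u ∈ J := by
      intro d u hu i hi
      have h1 := congrArg d (hu i hi)
      rw [Derivation.leibniz, map_zero, smul_eq_mul, smul_eq_mul, hu _ (hIst d i hi),
        zero_add] at h1
      rw [mul_comm, h1]
    have hIJ : ∀ u, u ∈ I → u ∈ J → u = 0 := by
      intro u hu hu'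
      apply IsReduced.eq_zero
      exact ⟨2, by rw [pow_two]; exact hu' u hu⟩
    have haJ : a ∈ J := by
      intro i hi
      rw [mul_comm, hi]
    have hKst : ∀ (d : Derivation ℂ A A), ∀ u ∈ I ⊔ J, d u ∈ I ⊔ J := by
      intro d u hu
      obtain ⟨i, hi, j, hj, rfl⟩ := Submodule.mem_sup.mp hu
      rw [map_add]
      exact Submodule.add_mem_sup (hIst d i hi) (hJst d j hj)
    obtain ⟨s0, hs0, u0, w0, hu0, hs0e⟩ := dom_exists_s a (hint a)
    have hs0K : algebraMap S A s0 ∈ I ⊔ J := by
      rw [hs0e]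
      exact Submodule.add_mem_sup hu0 (J.mul_mem_left _ haJ)
    have hrad : ∀ j, f * xx A j ^ N ∈ (I ⊔ J).radical := by
      intro j
      rw [← Ideal.sInf_minimalPrimes, Ideal.mem_sInf]
      intro P hP
      have hpr : P.IsPrime := hP.1.1
      have hst : ∀ i, ∀ x ∈ P, D i x ∈ P := fun i x hx =>
        dom_minimal_stable hP (D i) (hKst (D i)) hx
      have hr : r ∈ P := dom_r_mem hpr D r hD hst s0 hs0 (hP.1.2 hs0K)
      have hdy : ∀ i, D i y ∈ P := fun i =>
        dom_dy_mem hpr (D i) r y (fun s => ⟨_, hD i s⟩) (hst i) hr (hint y)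
      have hle : Ideal.span {D 0 y, D 1 y, r} ≤ P := by
        rw [Ideal.span_le]
        intro z hz
        rcases hz with rfl | rfl | rfl
        · exact hdy 0
        · exact hdy 1
        · exact hr
      exact hle (hmem j)
    obtain ⟨n0, hn0⟩ := hrad 0
    obtain ⟨n1, hn1⟩ := hrad 1
    have hk0 : f ^ (n0 + n1) * xx A 0 ^ (N * (n0 + n1)) ∈ I ⊔ J := by
      have : f ^ (n0 + n1) * xx A 0 ^ (N * (n0 + n1))
          = (f * xx A 0 ^ N) ^ n1 * (f * xx A 0 ^ N) ^ n0 := by
        rw [pow_mul, ← mul_pow, pow_add, mul_comm]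
      rw [this]
      exact Ideal.mul_mem_left _ _ hn0
    have hk1 : f ^ (n0 + n1) * xx A 1 ^ (N * (n0 + n1)) ∈ I ⊔ J := by
      have : f ^ (n0 + n1) * xx A 1 ^ (N * (n0 + n1))
          = (f * xx A 1 ^ N) ^ n0 * (f * xx A 1 ^ N) ^ n1 := by
        rw [pow_mul, ← mul_pow, pow_add]
      rw [this]
      exact Ideal.mul_mem_left _ _ hn1
    set m := N * (n0 + n1)
    set F := f ^ (n0 + n1) with hF
    obtain ⟨i0, hi0, j0, hj0, e0⟩ := Submodule.mem_sup.mp hk0
    obtain ⟨i1, hi1, j1, hj1, e1⟩ := Submodule.mem_sup.mp hk1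
    have hz : xx A 1 ^ m * i0 - xx A 0 ^ m * i1 = 0 := by
      apply hIJ
      · exact I.sub_mem (I.mul_mem_left _ hi0) (I.mul_mem_left _ hi1)
      · have : xx A 1 ^ m * i0 - xx A 0 ^ m * i1 = xx A 0 ^ m * j1 - xx A 1 ^ m * j0 := by
          linear_combination (xx A 1 ^ m) * e0 - (xx A 0 ^ m) * e1
        rw [this]
        exact J.sub_mem (J.mul_mem_left _ hj1) (J.mul_mem_left _ hj0)
    obtain ⟨γ, hγ0, -⟩ := hreg m i0 i1 (sub_eq_zero.mp hz)
    have hX : (X 0 ^ m : S) ≠ 0 := pow_ne_zero _ (X_ne_zero 0)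
    have hxx : algebraMap S A (X 0 ^ m) = xx A 0 ^ m := by rw [map_pow]; rfl
    have hγI : γ * a = 0 := by
      apply htf _ _ hX
      rw [hxx, ← mul_assoc, ← hγ0]
      exact hi0
    have hγJ : (F - γ) * c = 0 := by
      apply htf _ _ hX
      have : xx A 0 ^ m * (F - γ) = j0 := by
        linear_combination hγ0 - e0
      rw [hxx, ← mul_assoc, this]
      exact hj0 c (by rw [mul_comm, hac])
    by_cases hχ : χ γ = 0
    · right
      apply hnzd _ _ _ hγJ
      rw [map_sub, hχ, sub_zero, hF, map_pow]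
      exact pow_ne_zero _ hf
    · left
      exact hnzd _ _ hχ hγI
  haveI : NoZeroDivisors A := ⟨fun {a b} h => hzd a b h⟩
  exact NoZeroDivisors.to_isDomain A

end Vale.Agent.P266
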