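import Vale.Agent.P266.Defs

namespace Vale.Agent.P266

open MvPolynomial Matrix

variable {A : Type} [CommRing A] [Algebra S A] [Algebra ℂ A] [IsScalarTower ℂ S A]

/-- Dividing a derivation by a regular element dividing all its values. -/
theorem der_div {A : Type} [CommRing A] [Algebra ℂ A] [IsDomain A] (q : Derivation ℂ A A) {r : A}
    (hr : r ≠ 0) (h : ∀ a, r ∣ q a) : ∃ v : Derivation ℂ A A, ∀ a, r * v a = q a := by
  choose v hv using h
  let L : A →ₗ[ℂ] A :=
    { toFun := v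
      map_add' := fun a b => mul_left_cancel₀ hr (by rw [mul_add, ← hv, ← hv, ← hv, map_add])
      map_smul' := fun c a => mul_left_cancel₀ hr (by
        rw [RingHom.id_apply, mul_smul_comm, ← hv, ← hv, q.map_smul]) }
  refine ⟨Derivation.mk' L fun a b => mul_left_cancel₀ hr ?_, fun a => (hv a).symm⟩
  change r * v (a * b) = r * (a • v b + b • v a)
  rw [← hv, q.leibniz, hv, hv]
  simp only [smul_eq_mul]
  ring

/-- Derivations extend to localizations. -/
theorem der_ext {A B : Type} [CommRing A] [Algebra ℂ A] [CommRing B] [Algebra ℂ B] [Algebra A B]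
    [IsScalarTower ℂ A B] (M : Submonoid A) [IsLocalization M B] (v : Derivation ℂ A A) :
    ∃ w : Derivation ℂ B B, ∀ a, w (algebraMap A B a) = algebraMap A B (v a) := by
  have := Algebra.FormallyEtale.of_isLocalization (Rₘ := B) M
  have hb := KaehlerDifferential.isBaseChange_of_formallyEtale ℂ A B
  let g : Ω[A⁄ℂ] →ₗ[A] B := (Algebra.linearMap A B).comp v.liftKaehlerDifferential
  refine ⟨(hb.lift g).compDer (KaehlerDifferential.D ℂ B), fun a => ?_⟩
  change hb.lift g (KaehlerDifferential.D ℂ B (algebraMap A B a)) = _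
  rw [← KaehlerDifferential.map_D ℂ ℂ A B, hb.lift_eq]
  simp [g]

/-- A derivation of a localization is determined by its values on the ring. -/
theorem der_zero {A B : Type} [CommRing A] [CommRing B] [Algebra ℂ B] [Algebra A B]
    (M : Submonoid A) [IsLocalization M B] (w : Derivation ℂ B B)
    (h : ∀ a, w (algebraMap A B a) = 0) : w = 0 := by
  ext b
  obtain ⟨⟨a, s⟩, hs⟩ := IsLocalization.surj M b
  have h1 := congrArg w hs
  rw [w.leibniz, h, h, smul_zero, zero_add, smul_eq_mul] at h1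
  exact ((IsLocalization.map_units B s).mul_right_eq_zero).mp h1

/-- A syzygy gives a derivation. -/
theorem der_of_syz [IsDomain A] (D : Fin 2 → Derivation ℂ A A) (r y f : A) (hr : r ≠ 0)
    (hD : ∀ i j, D i (xx A j) = if i = j then r else 0)
    (hbr : ∀ a, r ∣ D 0 y * D 1 a - D 1 y * D 0 a) (hx : xx A 0 ≠ 0)
    (hreg : ∀ (n : ℕ) (α β : A), xx A 1 ^ n * α = xx A 0 ^ n * β →
      ∃ γ, α = xx A 0 ^ n * γ ∧ β = xx A 1 ^ n * γ)
    (N : ℕ) (hmem : ∀ j, f * xx A j ^ N ∈ Ideal.span {D 0 y, D 1 y, r})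
    (V : Fin 3 → A) (hV : V ⬝ᵥ ![D 0 y, D 1 y, -r] = 0) :
    ∃ v : Derivation ℂ A A, v (xx A 0) = f * V 0 ∧ v (xx A 1) = f * V 1 := by
  have hV' : V 0 * D 0 y + V 1 * D 1 y = V 2 * r := by
    simp only [dotProduct, Fin.sum_univ_three, cons_val_zero, cons_val_one, cons_val] at hV
    linear_combination hV
  let q : Derivation ℂ A A := V 0 • D 0 + V 1 • D 1
  have hq : ∀ a, q a = V 0 * D 0 a + V 1 * D 1 a := fun a => rfl
  have h1 : ∀ a j, r ∣ f * xx A j ^ N * q a := by
    intro a j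
    obtain ⟨c, hc⟩ := hbr a
    obtain ⟨s, t, u, hstu⟩ : ∃ s t u, s * D 0 y + t * D 1 y + u * r = f * xx A j ^ N := by
      obtain ⟨s, z, hz, e⟩ := Ideal.mem_span_insert.mp (hmem j)
      obtain ⟨t, u, e'⟩ := Ideal.mem_span_pair.mp hz
      exact ⟨s, t, u, by rw [e, ← e']; ring⟩
    refine ⟨s * (V 2 * D 0 a + V 1 * c) + t * (V 2 * D 1 a - V 0 * c) + u * q a, ?_⟩
    rw [← hstu, hq]
    linear_combination (s * D 0 a + t * D 1 a) * hV' + (s * V 1 - t * V 0) * hc
  have h2 : ∀ a, r ∣ (f • q) a := by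
    intro a
    obtain ⟨c0, h0⟩ := h1 a 0
    obtain ⟨c1, h1⟩ := h1 a 1
    obtain ⟨γ, hγ, -⟩ := hreg N c0 c1 (mul_left_cancel₀ hr (by
      linear_combination xx A 0 ^ N * h1 - xx A 1 ^ N * h0))
    refine ⟨γ, mul_left_cancel₀ (pow_ne_zero N hx) ?_⟩
    change xx A 0 ^ N * (f * q a) = _
    linear_combination h0 + r * hγ
  obtain ⟨v, hv⟩ := der_div (f • q) hr h2
  refine ⟨v, mul_left_cancel₀ hr ?_, mul_left_cancel₀ hr ?_⟩
  · rw [hv]
    change f * q _ = _
    rw [hq, hD, hD]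
    simp only [if_true, one_ne_zero, if_false]
    ring
  · rw [hv]
    change f * q _ = _
    rw [hq, hD, hD]
    simp only [if_true, zero_ne_one, if_false]
    ring

/-- Every syzygy is, up to `δ f`, a combination of the two given ones. -/
theorem syz_span {A : Type} [CommRing A] [IsDomain A] (x0 x1 g0 g1 r f δ : A) (hr : r ≠ 0)
    (hx : x0 ≠ 0) (N : ℕ)
    (hreg : ∀ α β : A, x1 ^ N * α = x0 ^ N * β → ∃ γ, α = x0 ^ N * γ ∧ β = x1 ^ N * γ)
    (h0 : f * x0 ^ N ∈ Ideal.span {g0, g1, r}) (h1 : f * x1 ^ N ∈ Ideal.span {g0, g1, r})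
    (V W : Fin 3 → A) (e0 : f * (V 1 * W 2 - V 2 * W 1) = δ * g0)
    (e1 : f * (V 2 * W 0 - V 0 * W 2) = δ * g1) (e2 : f * (V 0 * W 1 - V 1 * W 0) = δ * -r)
    (hf : f ≠ 0) (hδ : δ ≠ 0) (p0 p1 p2 : A) (hp : p0 * g0 + p1 * g1 = p2 * r) :
    ∃ a b, δ * f * p0 = a * V 0 + b * W 0 ∧ δ * f * p1 = a * V 1 + b * W 1 := by
  have hdet : (V 1 * W 2 - V 2 * W 1) * p0 + (V 2 * W 0 - V 0 * W 2) * p1 +
      (V 0 * W 1 - V 1 * W 0) * p2 = 0 := by
    apply mul_left_cancel₀ hf
    linear_combination p0 * e0 + p1 * e1 + p2 * e2 + δ * hp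
  have key : ∀ t ∈ Ideal.span {g0, g1, r},
      ∃ a b, δ * t * p0 = a * V 0 + b * W 0 ∧ δ * t * p1 = a * V 1 + b * W 1 := by
    intro t ht
    obtain ⟨s, z, hz, e⟩ := Ideal.mem_span_insert.mp ht
    obtain ⟨c, u, e'⟩ := Ideal.mem_span_pair.mp hz
    refine ⟨f * (s * (p1 * W 2 - p2 * W 1) + c * (p2 * W 0 - p0 * W 2) - u * (p0 * W 1 - p1 * W 0)),
      f * (s * (V 1 * p2 - V 2 * p1) + c * (V 2 * p0 - V 0 * p2) - u * (V 0 * p1 - V 1 * p0)),
      ?_, ?_⟩
    · rw [e, ← e']
      linear_combination (-s * p0) * e0 - c * p0 * e1 + u * p0 * e2 + f * s * hdet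
    · rw [e, ← e']
      linear_combination (-s * p1) * e0 - c * p1 * e1 + u * p1 * e2 + f * c * hdet
  have ind : ∀ a b, a * V 0 + b * W 0 = 0 → a * V 1 + b * W 1 = 0 → a = 0 ∧ b = 0 := by
    intro a b u0 u1
    have n : δ * r ≠ 0 := mul_ne_zero hδ hr
    constructor
    · apply mul_left_cancel₀ n
      linear_combination a * e2 - f * W 1 * u0 + f * W 0 * u1
    · apply mul_left_cancel₀ n
      linear_combination b * e2 + f * V 1 * u0 - f * V 0 * u1
  obtain ⟨a0, b0, u0, u1⟩ := key _ h0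
  obtain ⟨a1, b1, w0, w1⟩ := key _ h1
  obtain ⟨ha, hb⟩ := ind (x1 ^ N * a0 - x0 ^ N * a1) (x1 ^ N * b0 - x0 ^ N * b1)
    (by linear_combination x0 ^ N * w0 - x1 ^ N * u0)
    (by linear_combination x0 ^ N * w1 - x1 ^ N * u1)
  obtain ⟨γ, hγ, -⟩ := hreg a0 a1 (sub_eq_zero.mp ha)
  obtain ⟨γ', hγ', -⟩ := hreg b0 b1 (sub_eq_zero.mp hb)
  refine ⟨γ, γ', mul_left_cancel₀ (pow_ne_zero N hx) ?_, mul_left_cancel₀ (pow_ne_zero N hx) ?_⟩
  · linear_combination u0 + V 0 * hγ + W 0 * hγ'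
  · linear_combination u1 + V 1 * hγ + W 1 * hγ'

theorem free_der [IsDomain A] (D : Fin 2 → Derivation ℂ A A) (r y f δ : A) (hr : r ≠ 0)
    (hD : ∀ i j, D i (xx A j) = if i = j then r else 0)
    (hbr : ∀ a, r ∣ D 0 y * D 1 a - D 1 y * D 0 a)
    (huniq : ∀ (w : Derivation ℂ A (Localization.Away (f * δ))), (∀ i, w (xx A i) = 0) →
      ∀ a, r • w a = 0)
    (hx : xx A 0 ≠ 0)
    (hreg : ∀ (n : ℕ) (α β : A), xx A 1 ^ n * α = xx A 0 ^ n * β →
      ∃ γ, α = xx A 0 ^ n * γ ∧ β = xx A 1 ^ n * γ)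
    (N : ℕ) (hmem : ∀ j, f * xx A j ^ N ∈ Ideal.span {D 0 y, D 1 y, r})
    (V W : Fin 3 → A) (hV : V ⬝ᵥ ![D 0 y, D 1 y, -r] = 0) (hW : W ⬝ᵥ ![D 0 y, D 1 y, -r] = 0)
    (hVW : f • crossProduct V W = δ • ![D 0 y, D 1 y, -r]) (hfd : f * δ ≠ 0) :
    Module.Free (Localization.Away (f * δ))
      (Derivation ℂ (Localization.Away (f * δ)) (Localization.Away (f * δ))) := by
  have hf : f ≠ 0 := left_ne_zero_of_mul hfd
  have hδ : δ ≠ 0 := right_ne_zero_of_mul hfd
  have hle := powers_le_nonZeroDivisors_of_noZeroDivisors hfd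
  have hinj := IsLocalization.injective (Localization.Away (f * δ)) hle
  have hdom : IsDomain (Localization.Away (f * δ)) := IsLocalization.isDomain_localization hle
  set B := Localization.Away (f * δ)
  set ι := algebraMap A B with hι
  have e0 : f * (V 1 * W 2 - V 2 * W 1) = δ * D 0 y := by
    simpa [cross_apply] using congrFun hVW 0
  have e1 : f * (V 2 * W 0 - V 0 * W 2) = δ * D 1 y := by
    simpa [cross_apply] using congrFun hVW 1
  have e2 : f * (V 0 * W 1 - V 1 * W 0) = δ * -r := by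
    simpa [cross_apply] using congrFun hVW 2
  have nz : ∀ a : A, a ≠ 0 → ι a ≠ 0 := fun a ha => (map_ne_zero_iff ι hinj).mpr ha
  have huniq' : ∀ (w : Derivation ℂ A B), (∀ i, w (xx A i) = 0) → ∀ a, w a = 0 := by
    intro w hw a
    have := huniq w hw a
    rw [Algebra.smul_def] at this
    exact (mul_eq_zero.mp this).resolve_left (nz r hr)
  have hzero : ∀ w : Derivation ℂ B B, w (ι (xx A 0)) = 0 → w (ι (xx A 1)) = 0 → w = 0 := by
    intro w h0 h1
    refine der_zero (Submonoid.powers (f * δ)) w (huniq' (w.compAlgebraMap A) fun i => ?_)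
    fin_cases i
    · exact h0
    · exact h1
  obtain ⟨v, v0, v1⟩ := der_of_syz D r y f hr hD hbr hx hreg N hmem V hV
  obtain ⟨w, w0, w1⟩ := der_of_syz D r y f hr hD hbr hx hreg N hmem W hW
  obtain ⟨v', hv'⟩ := der_ext (B := B) (Submonoid.powers (f * δ)) v
  obtain ⟨w', hw'⟩ := der_ext (B := B) (Submonoid.powers (f * δ)) w
  have hli : LinearIndependent B ![v', w'] := by
    rw [LinearIndependent.pair_iff]
    intro a b hab
    have u0 : a * ι (f * V 0) + b * ι (f * W 0) = 0 := by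
      rw [← v0, ← w0, ← hv', ← hw']
      exact Derivation.congr_fun hab _
    have u1 : a * ι (f * V 1) + b * ι (f * W 1) = 0 := by
      rw [← v1, ← w1, ← hv', ← hw']
      exact Derivation.congr_fun hab _
    have n : ι (δ * r) ≠ 0 := nz _ (mul_ne_zero hδ hr)
    have e := congrArg ι e2
    simp only [map_mul, map_sub, map_neg] at u0 u1 e n
    constructor
    · apply mul_left_cancel₀ n
      linear_combination a * e - ι (W 1) * u0 + ι (W 0) * u1
    · apply mul_left_cancel₀ n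
      linear_combination b * e + ι (V 1) * u0 - ι (V 0) * u1
  have hsp : ⊤ ≤ Submodule.span B (Set.range ![v', w']) := by
    intro z _
    let E : Fin 2 → Derivation ℂ A B := fun i => (Algebra.linearMap A B).compDer (D i)
    have hE : ∀ i a, E i a = ι (D i a) := fun i a => rfl
    have hp : z (ι (xx A 0)) * ι (D 0 y) + z (ι (xx A 1)) * ι (D 1 y) = z (ι y) * ι r := by
      have := huniq' (ι r • z.compAlgebraMap A - z (ι (xx A 0)) • E 0 - z (ι (xx A 1)) • E 1)
        (fun i => by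
          change ι r * z (ι (xx A i)) - z (ι (xx A 0)) * ι (D 0 _) -
            z (ι (xx A 1)) * ι (D 1 _) = 0
          rw [hD, hD]
          fin_cases i <;> simp [mul_comm]) y
      change ι r * z (ι y) - z (ι (xx A 0)) * ι (D 0 _) - z (ι (xx A 1)) * ι (D 1 _) = 0 at this
      linear_combination -this
    obtain ⟨s, hs⟩ := IsLocalization.exist_integer_multiples_of_finite (Submonoid.powers (f * δ))
      ![z (ι (xx A 0)), z (ι (xx A 1)), z (ι y)]
    obtain ⟨p0, h0⟩ := hs 0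
    obtain ⟨p1, h1⟩ := hs 1
    obtain ⟨p2, h2⟩ := hs 2
    rw [Algebra.smul_def] at h0 h1 h2
    change ι p0 = ι s * z (ι (xx A 0)) at h0
    change ι p1 = ι s * z (ι (xx A 1)) at h1
    change ι p2 = ι s * z (ι y) at h2
    have hp' : p0 * D 0 y + p1 * D 1 y = p2 * r := by
      apply hinj
      change ι _ = ι _
      rw [map_add, map_mul, map_mul, map_mul, h0, h1, h2]
      linear_combination ι s * hp
    obtain ⟨a, b, u0, u1⟩ := syz_span (xx A 0) (xx A 1) (D 0 y) (D 1 y) r f δ hr hx N (hreg N)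
      (hmem 0) (hmem 1) V W e0 e1 e2 hf hδ p0 p1 p2 hp'
    have hu : IsUnit (ι (f * δ)) := IsLocalization.Away.algebraMap_isUnit (f * δ)
    have hfu : IsUnit (ι f) := isUnit_of_mul_isUnit_left (by rwa [map_mul] at hu)
    obtain ⟨t, ht⟩ := (((hu.mul hfu).mul (IsLocalization.map_units B s)).exists_left_inv)
    change t * (ι (f * δ) * ι f * ι s) = 1 at ht
    have e : z = (t * ι a) • v' + (t * ι b) • w' := by
      have u0' := congrArg ι u0
      have u1' := congrArg ι u1
      simp only [map_mul, map_add] at u0' u1' ht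
      refine sub_eq_zero.mp (hzero _ ?_ ?_)
      · change z _ - ((t * ι a) * v' _ + (t * ι b) * w' _) = 0
        rw [hv', hw', v0, w0]
        change z _ - (t * ι a * ι _ + t * ι b * ι _) = 0
        rw [map_mul, map_mul]
        linear_combination (-z (ι (xx A 0))) * ht + t * ι f * u0' - t * ι f * ι δ * ι f * h0
      · change z _ - ((t * ι a) * v' _ + (t * ι b) * w' _) = 0
        rw [hv', hw', v1, w1]
        change z _ - (t * ι a * ι _ + t * ι b * ι _) = 0
        rw [map_mul, map_mul]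
        linear_combination (-z (ι (xx A 1))) * ht + t * ι f * u1' - t * ι f * ι δ * ι f * h1
    rw [e]
    exact Submodule.add_mem _ (Submodule.smul_mem _ _ (Submodule.subset_span ⟨0, rfl⟩))
      (Submodule.smul_mem _ _ (Submodule.subset_span ⟨1, rfl⟩))
  exact Module.Free.of_basis (Module.Basis.mk hli hsp)

end Vale.Agent.P266
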