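import Vale.Agent.P266.Defs

namespace Vale.Agent.P266

open MvPolynomial

variable {A : Type} [CommRing A] [Algebra S A] [Algebra ℂ A] [IsScalarTower ℂ S A]
variable {b : Module.Basis (Fin 8) S A}

/-- the coordinates at the origin -/
noncomputable def locC (b : Module.Basis (Fin 8) S A) (u : A) (k : Fin 8) : ℂ :=
  constantCoeff (b.repr u k)

section

omit [Algebra ℂ A] [IsScalarTower ℂ S A]

theorem locC_add (u v : A) (k : Fin 8) : locC b (u + v) k = locC b u k + locC b v k := by
  simp [locC]

theorem locC_basis (i k : Fin 8) : locC b (b i) k = if i = k then 1 else 0 := by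
  simp only [locC, Module.Basis.repr_self, Finsupp.single_apply]
  split_ifs <;> simp

theorem locC_alg (h : Frob b) (s : S) (k : Fin 8) :
    locC b (algebraMap S A s) k = if k = 0 then constantCoeff s else 0 := by
  rw [Algebra.algebraMap_eq_smul_one, ← h.one]
  simp only [locC, map_smul, Module.Basis.repr_self, Finsupp.smul_apply, Finsupp.single_apply,
    eq_comm (a := k)]
  split_ifs <;> simp

theorem locC_mul (u v : A) (k : Fin 8) :
    locC b (u * v) k = ∑ i, ∑ j, locC b u i * locC b v j * locC b (b i * b j) k := by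
  conv_lhs => rw [← b.sum_repr u, ← b.sum_repr v, Finset.sum_mul_sum]
  simp only [locC, smul_mul_smul_comm, map_sum, map_smul, Finsupp.finsetSum_apply,
    Finsupp.smul_apply, smul_eq_mul, map_mul]

theorem locC_table (h : Frob b) (hl : Loc b) (i j k : Fin 8) (hk : k ≠ 7) :
    locC b (b i * b j) k = if (i = 0 ∧ j = k) ∨ (j = 0 ∧ i = k) then 1 else 0 := by
  by_cases hi : i = 0
  · subst hi
    rw [h.one, one_mul, locC_basis]
    exact if_congr ⟨fun e => Or.inl ⟨rfl, e⟩, fun e => e.elim And.right fun e => e.1.trans e.2⟩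
      rfl rfl
  · by_cases hj : j = 0
    · subst hj
      rw [h.one, mul_one, locC_basis]
      simp [hi]
    · rw [if_neg (by simp [hi, hj])]
      exact hl i j k hi hj hk

theorem locC_mul_zero (h : Frob b) (hl : Loc b) (u v : A) :
    locC b (u * v) 0 = locC b u 0 * locC b v 0 := by
  have : ∀ i j : Fin 8, (i = 0 ∧ j = 0) ∨ (j = 0 ∧ i = 0) ↔ i = 0 ∧ j = 0 := by tauto
  simp [locC_mul u v, locC_table h hl _ _ 0 (by decide), this, ite_and]

theorem locC_mul_mid (h : Frob b) (hl : Loc b) (u v : A) {k : Fin 8} (h0 : k ≠ 0) (h7 : k ≠ 7) :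
    locC b (u * v) k = locC b u 0 * locC b v k + locC b v 0 * locC b u k := by
  have : ∀ i j : Fin 8, (if (i = 0 ∧ j = k) ∨ (j = 0 ∧ i = k) then (1 : ℂ) else 0) =
      (if i = 0 then if j = k then 1 else 0 else 0) +
        if i = k then if j = 0 then 1 else 0 else 0 := fun i j => by
    by_cases e : i = 0
    · subst e
      simp [h0.symm]
    · simp [e, ite_and, and_comm]
  simp only [locC_mul u v, locC_table h hl _ _ k h7, this, mul_add, Finset.sum_add_distrib]
  simp [mul_comm]

theorem locC_mul_last (h : Frob b) (u v : A) :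
    locC b (u * v) 7 = ∑ i, locC b u i * locC b v (dl i) := by
  have : ∀ i j, locC b (b i * b j) 7 = if j = dl i then 1 else 0 := fun i j => by
    rw [locC, h.pair]
    split_ifs <;> simp
  simp [locC_mul u v, this]

theorem loc_mem_span (p : S) : p - C (constantCoeff p) ∈ Ideal.span {(X 0 : S), X 1} := by
  induction p using MvPolynomial.induction_on with
  | C a => simp
  | add p q hp hq =>
    rw [map_add, map_add, add_sub_add_comm]
    exact add_mem hp hq
  | mul_X p i _ =>
    rw [map_mul, constantCoeff_X, mul_zero, map_zero, sub_zero]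
    refine Ideal.mul_mem_left _ _ (Ideal.subset_span ?_)
    fin_cases i <;> simp

theorem loc_mem_mA {u : A} (hu : ∀ k, locC b u k = 0) : u ∈ mA A := by
  have e : mA A = (Ideal.span {(X 0 : S), X 1}).map (algebraMap S A) := by
    rw [Ideal.map_span, Set.image_pair]
    rfl
  rw [← b.sum_repr u, e]
  refine Ideal.sum_mem _ fun k _ => ?_
  rw [Algebra.smul_def]
  refine Ideal.mul_mem_right _ _ (Ideal.mem_map_of_mem _ ?_)
  have := loc_mem_span (b.repr u k)
  rwa [show constantCoeff (b.repr u k) = 0 from hu k, map_zero, sub_zero] at this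

theorem loc_cube (h : Frob b) (hl : Loc b) {n : A} (hn : locC b n 0 = 0) : n ^ 3 ∈ mA A := by
  have h1 : ∀ (u v : A) (k : Fin 8), locC b u 0 = 0 → locC b v 0 = 0 → k ≠ 7 →
      locC b (u * v) k = 0 := fun u v k hu hv hk => by
    by_cases h0 : k = 0
    · rw [h0, locC_mul_zero h hl, hu, zero_mul]
    · rw [locC_mul_mid h hl u v h0 hk, hu, hv, zero_mul, zero_mul, add_zero]
  rw [pow_three']
  refine loc_mem_mA (b := b) fun k => ?_
  by_cases hk : k = 7
  · rw [hk, locC_mul_last h]
    refine Finset.sum_eq_zero fun i _ => ?_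
    by_cases hi : i = 7
    · rw [hi, show dl 7 = 0 from rfl, hn, mul_zero]
    · rw [h1 n n i hn hn hi, zero_mul]
  · exact h1 _ n k (h1 n n 0 hn hn (by decide)) hn hk

theorem loc_tf (b : Module.Basis (Fin 8) S A) {s : S} (hs : s ≠ 0) {v : A}
    (h : s • v = 0) : v = 0 := b.ext_elem fun j => by
  have := congrArg (fun u => b.repr u j) h
  simpa [hs] using this

/-- the first order jet along three basis directions -/
noncomputable def locJet (h : Frob b) (hl : Loc b) : A →+* TrivSqZeroExt ℂ (Fin 3 → ℂ) where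
  toFun u := (locC b u 0, fun i => locC b u (![1, 2, 3] i))
  map_one' := by
    rw [← h.one]
    ext i
    · simp [locC_basis]
    · fin_cases i <;> simp [locC_basis]
  map_mul' u v := by
    ext i
    · exact locC_mul_zero h hl u v
    · exact (locC_mul_mid h hl u v (k := ![1, 2, 3] i) (by fin_cases i <;> decide)
        (by fin_cases i <;> decide)).trans (by rw [mul_comm (locC b v 0)]; rfl)
  map_zero' := by
    ext i <;> simp [locC]
  map_add' u v := by
    ext i <;> exact locC_add _ _ _

end

theorem loc_not_two {R : Type} [CommRing R] (θ : R →+* TrivSqZeroExt ℂ (Fin 3 → ℂ)) (s : Finset R)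
    (hs : ∀ y ∈ Ideal.span (s : Set R), (θ y).fst = 0)
    (he : ∀ i, ∃ y ∈ Ideal.span (s : Set R), (θ y).snd = Pi.single i 1) : 3 ≤ s.card := by
  classical
  have h1 : ∀ y ∈ Ideal.span (s : Set R),
      (θ y).snd ∈ Submodule.span ℂ (s.image fun y => (θ y).snd : Set (Fin 3 → ℂ)) := by
    intro y hy
    induction hy using Submodule.span_induction with
    | mem x hx => exact Submodule.subset_span (Finset.mem_coe.2 (Finset.mem_image_of_mem _ hx))
    | zero => simp
    | add x y _ _ hx hy =>
      rw [map_add, TrivSqZeroExt.snd_add]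
      exact add_mem hx hy
    | smul r x hx ih =>
      rw [smul_eq_mul, map_mul, TrivSqZeroExt.snd_mul, hs x hx, MulOpposite.op_zero, zero_smul,
        add_zero]
      exact Submodule.smul_mem _ _ ih
  have h2 : Submodule.span ℂ (s.image fun y => (θ y).snd : Set (Fin 3 → ℂ)) = ⊤ := by
    rw [eq_top_iff, ← (Pi.basisFun ℂ (Fin 3)).span_eq, Submodule.span_le]
    rintro _ ⟨i, rfl⟩
    obtain ⟨y, hy, e⟩ := he i
    rw [Pi.basisFun_apply, ← e]
    exact h1 y hy
  have h3 := finrank_span_finset_le_card (R := ℂ) (s.image fun y => (θ y).snd)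
  rw [Set.finrank, h2, finrank_top, Module.finrank_fin_fun] at h3
  exact h3.trans Finset.card_image_le

/-- Evaluation at the singular point is an algebra map. -/
theorem exists_ev (h : Frob b) (hl : Loc b) : ∃ χ : A →ₐ[ℂ] ℂ, ∀ u, χ u = ev b u := by
  refine ⟨{ toFun := fun u => locC b u 0
            map_one' := by rw [← h.one, locC_basis, if_pos rfl]
            map_mul' := locC_mul_zero h hl
            map_zero' := by simp [locC]
            map_add' := fun u v => locC_add u v 0
            commutes' := fun z => ?_ }, fun _ => rfl⟩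
  rw [IsScalarTower.algebraMap_apply ℂ S A, locC_alg h]
  simp

theorem ev_xx (h : Frob b) (i : Fin 2) : ev b (xx A i) = 0 := by
  exact (locC_alg h (X i) 0).trans (by simp)

/-- An element that does not vanish at the singular point is not a zero divisor. -/
theorem eq_zero_of_ev (h : Frob b) (hl : Loc b) {u a : A} (hu : ev b u ≠ 0) (ha : u * a = 0) :
    a = 0 := by
  obtain ⟨χ, hχ⟩ := exists_ev h hl
  have := Module.Finite.of_basis b
  have h1 : (u - algebraMap ℂ A (χ u)) ^ 3 ∈ mA A :=
    loc_cube h hl ((hχ _).symm.trans (by simp))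
  obtain ⟨α, β, h2⟩ := Ideal.mem_span_pair.1 h1
  have h3 : algebraMap ℂ A (χ u) * algebraMap ℂ A (χ u)⁻¹ = 1 := by
    rw [← map_mul, mul_inv_cancel₀ (hχ u ▸ hu), map_one]
  generalize algebraMap ℂ A (χ u) = z at h2 h3
  generalize algebraMap ℂ A (χ u)⁻¹ = z' at h3
  obtain ⟨r, hr, hr'⟩ := Submodule.exists_sub_one_mem_and_smul_eq_zero_of_fg_of_le_smul
    (Ideal.span {(X 0 : S), X 1}) (LinearMap.range (LinearMap.mulLeft S a))
    (Submodule.fg_range _) (by
      rintro _ ⟨x, rfl⟩
      have e : LinearMap.mulLeft S a x = (X 0 : S) • (a * (-z' ^ 3 * α * x)) +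
          (X 1 : S) • (a * (-z' ^ 3 * β * x)) := by
        rw [LinearMap.mulLeft_apply, Algebra.smul_def, Algebra.smul_def]
        simp only [xx] at h2
        linear_combination (a * x * z' ^ 3) * h2 + x * z' ^ 3 * (u ^ 2 - 3 * u * z + 3 * z ^ 2) * ha -
          a * x * ((z * z') ^ 2 + z * z' + 1) * h3
      rw [e]
      exact add_mem (Submodule.smul_mem_smul (Ideal.subset_span (by simp)) ⟨_, rfl⟩)
        (Submodule.smul_mem_smul (Ideal.subset_span (by simp)) ⟨_, rfl⟩))
  refine loc_tf b (fun h0 => ?_) (hr' a ⟨1, mul_one a⟩)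
  obtain ⟨p, q, e⟩ := Ideal.mem_span_pair.1 hr
  have := congrArg constantCoeff e
  simp [h0] at this

/-- Powers of the two variables form a regular sequence. -/
theorem reg_seq (b : Module.Basis (Fin 8) S A) (n : ℕ) {α β : A}
    (hab : xx A 1 ^ n * α = xx A 0 ^ n * β) : ∃ γ, α = xx A 0 ^ n * γ ∧ β = xx A 1 ^ n * γ := by
  have h1 : ∀ k, ∃ c, b.repr α k = X 0 ^ n * c ∧ b.repr β k = X 1 ^ n * c := fun k => by
    have e := congrArg (fun u => b.repr u k) hab
    simp only [xx, ← map_pow, ← Algebra.smul_def, map_smul, Finsupp.smul_apply, smul_eq_mul] at e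
    obtain ⟨c, hc⟩ := (X_prime (R := ℂ) (i := (0 : Fin 2))).pow_dvd_of_dvd_mul_left n
      (fun h => absurd (X_dvd_X.1 (X_prime.dvd_of_dvd_pow h)) (by decide)) ⟨_, e⟩
    refine ⟨c, hc, mul_left_cancel₀ (pow_ne_zero n (X_ne_zero (0 : Fin 2))) ?_⟩
    rw [← e, hc]
    ring
  choose c hc hc' using h1
  refine ⟨b.equivFun.symm c, b.ext_elem fun k => ?_, b.ext_elem fun k => ?_⟩
  · simp [xx, ← map_pow, ← Algebra.smul_def, hc, Finsupp.single_apply]
  · simp [xx, ← map_pow, ← Algebra.smul_def, hc', Finsupp.single_apply]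

/-- No localization that keeps the singular point is regular. -/
theorem not_regular (h : Frob b) (hl : Loc b) {f : A} (hf : ev b f ≠ 0) :
    ¬ IsRegularRing (Localization.Away f) := by
  intro hreg
  classical
  let B := Localization.Away f
  let ψ : B →+* TrivSqZeroExt ℂ (Fin 3 → ℂ) := IsLocalization.Away.lift f (g := locJet h hl)
    (TrivSqZeroExt.isUnit_iff_isUnit_fst.2 (Ne.isUnit hf))
  have hψ : ∀ a, ψ (algebraMap A B a) = locJet h hl a := IsLocalization.Away.lift_eq f _
  let P : Ideal B := RingHom.ker ((TrivSqZeroExt.fstHom ℂ ℂ (Fin 3 → ℂ)).toRingHom.comp ψ)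
  have hP : ∀ y, y ∈ P ↔ (ψ y).fst = 0 := fun y => Iff.rfl
  have hPa : ∀ a, algebraMap A B a ∈ P ↔ locC b a 0 = 0 := fun a => by
    rw [hP, hψ]
    rfl
  have : P.IsPrime := RingHom.ker_isPrime _
  let R := Localization.AtPrime P
  let θ : R →+* TrivSqZeroExt ℂ (Fin 3 → ℂ) := IsLocalization.lift (M := P.primeCompl) (g := ψ)
    fun y => TrivSqZeroExt.isUnit_iff_isUnit_fst.2 (Ne.isUnit y.2)
  have hθ : ∀ y, θ (algebraMap B R y) = ψ y := IsLocalization.lift_eq _
  have hmin : P ∈ (Ideal.span
      (({algebraMap A B (xx A 0), algebraMap A B (xx A 1)} : Finset B) : Set B)).minimalPrimes := by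
    rw [Finset.coe_pair, ← Set.image_pair, ← Ideal.map_span]
    refine ⟨⟨this, Ideal.map_le_iff_le_comap.2 (Ideal.span_le.2 (Set.pair_subset
      ((hPa _).2 (ev_xx h 0)) ((hPa _).2 (ev_xx h 1))))⟩, fun q hq _ y hy => ?_⟩
    obtain ⟨⟨a, t⟩, e⟩ := IsLocalization.surj (Submonoid.powers f) y
    have h1 : locC b a 0 = 0 := (hPa a).1 (e ▸ P.mul_mem_right _ hy)
    have h2 := hq.2 (Ideal.mem_map_of_mem _ (loc_cube h hl h1))
    rw [map_pow] at h2
    have h3 := hq.1.mem_of_pow_mem _ h2
    rw [← e] at h3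
    exact (q.mul_unit_mem_iff_mem (IsLocalization.map_units B t)).1 h3
  have h1 := (Ideal.height_le_card_of_mem_minimalPrimes_span_finset hmin).trans
    (Nat.cast_le.2 Finset.card_le_two)
  have h2 := (hreg.isRegularLocalRing_localization P).spanFinrank_maximalIdeal
  rw [IsLocalization.AtPrime.ringKrullDim_eq_height P R] at h2
  obtain ⟨s, hs, hs'⟩ := Submodule.FG.exists_span_finset_card_eq_spanFinrank
    (IsNoetherian.noetherian (IsLocalRing.maximalIdeal R))
  replace hs' : Ideal.span (s : Set R) = P.map (algebraMap B R) :=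
    hs'.trans Localization.AtPrime.map_eq_maximalIdeal.symm
  have h3 := loc_not_two θ s (fun y hy => ?_) fun i => ?_
  · have h4 : ((s.card : ℕ∞) : WithBot ℕ∞) = P.height := hs ▸ h2
    rw [← WithBot.coe_eq_coe.1 h4, Nat.cast_le] at h1
    omega
  · rw [hs'] at hy
    refine (Ideal.map_le_iff_le_comap (K := RingHom.ker
      ((TrivSqZeroExt.fstHom ℂ ℂ (Fin 3 → ℂ)).toRingHom.comp θ))).2 (fun z hz => ?_) hy
    exact (congrArg TrivSqZeroExt.fst (hθ z)).trans hz
  · refine ⟨algebraMap B R (algebraMap A B (b (![1, 2, 3] i))),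
      hs' ▸ Ideal.mem_map_of_mem _ ((hPa _).2 ?_), ?_⟩
    · rw [hθ, hψ]
      funext j
      refine (locC_basis _ _).trans ?_
      fin_cases i <;> fin_cases j <;> simp
    · rw [locC_basis, if_neg (by fin_cases i <;> decide)]

end Vale.Agent.P266
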