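import Vale.Agent.P266.Defs

namespace Vale.Agent.P266

open MvPolynomial Matrix

variable {A : Type} [CommRing A] [Algebra S A] [Algebra ℂ A] [IsScalarTower ℂ S A]

lemma naka_pow_le {R : Type} [CommRing R] (x y : R) (n : ℕ) :
    (Ideal.span {x, y}) ^ n ≤ Ideal.span {z | ∃ i j, i + j = n ∧ z = x ^ i * y ^ j} := by
  induction n with
  | zero =>
    intro z _
    have h1 : (1 : R) ∈ Ideal.span {z | ∃ i j, i + j = 0 ∧ z = x ^ i * y ^ j} :=
      Ideal.subset_span ⟨0, 0, rfl, by simp⟩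
    simpa using Ideal.mul_mem_left _ z h1
  | succ n ih =>
    rw [pow_succ]
    refine (Ideal.mul_mono_left ih).trans ?_
    rw [Ideal.span_mul_span']
    refine Ideal.span_mono ?_
    rintro _ ⟨_, ⟨i, j, hij, rfl⟩, b, hb, rfl⟩
    rcases hb with rfl | rfl
    · exact ⟨i + 1, j, by omega, by ring⟩
    · exact ⟨i, j + 1, by omega, by ring⟩

lemma naka_cross {R : Type} [CommRing R] (M : Matrix (Fin 3) (Fin 3) R) (V W : Fin 3 → R) :
    crossProduct (V ᵥ* M) (W ᵥ* M) = M.adjugate *ᵥ crossProduct V W := by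
  funext k
  fin_cases k <;>
    simp [crossProduct, Matrix.vecMul, Matrix.mulVec, dotProduct, Fin.sum_univ_three,
      Matrix.adjugate_fin_three] <;> ring

lemma naka_mem_span {R : Type} [CommRing R] (g : Fin 3 → R) {z : R}
    (hz : z ∈ Ideal.span (Set.range g)) : ∃ α : Fin 3 → R, α ⬝ᵥ g = z := by
  obtain ⟨α, hα⟩ := Ideal.mem_span_range_iff_exists_fun.1 hz
  exact ⟨α, hα⟩

lemma naka_dot_mem {R : Type} [CommRing R] (g α : Fin 3 → R) :
    α ⬝ᵥ g ∈ Ideal.span (Set.range g) :=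
  Ideal.mem_span_range_iff_exists_fun.2 ⟨α, rfl⟩

omit [IsScalarTower ℂ S A] in
lemma naka_chi (χ : A →ₐ[ℂ] ℂ) (hχ : ∀ i, χ (xx A i) = 0) {z : A} (hz : z ∈ mA A) : χ z = 0 := by
  obtain ⟨a, b, rfl⟩ := Ideal.mem_span_pair.1 hz
  simp [hχ]

/-- From finite order data to exact syzygies. -/
theorem exact_syz (χ : A →ₐ[ℂ] ℂ) (hχ : ∀ i, χ (xx A i) = 0) (g : Fin 3 → A) (N : ℕ)
    (hN : ∀ i j, i + j = N → ∃ α : Fin 3 → A,
      xx A 0 ^ i * xx A 1 ^ j - α ⬝ᵥ g ∈ mA A ^ (N + 1))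
    (V W : Fin 3 → A) (U : Matrix (Fin 3) (Fin 3) A) (hU : χ U.det ≠ 0)
    (hVW : ∀ k, crossProduct V W k - (U *ᵥ g) k ∈ mA A ^ (N + 1)) :
    ∃ (f δ : A) (V' W' : Fin 3 → A), χ f ≠ 0 ∧ χ δ ≠ 0 ∧
      (∀ j, f * xx A j ^ N ∈ Ideal.span (Set.range g)) ∧ V' ⬝ᵥ g = 0 ∧ W' ⬝ᵥ g = 0 ∧
      f • crossProduct V' W' = δ • g := by
  classical
  have hfg : (mA A ^ N).FG := by
    refine Submodule.FG.pow ?_ N
    exact ⟨{xx A 0, xx A 1}, by simp [mA]⟩
  have hle : mA A ^ N ≤ Ideal.span (Set.range g) ⊔ mA A • mA A ^ N := by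
    refine (naka_pow_le (xx A 0) (xx A 1) N).trans (Ideal.span_le.2 ?_)
    rintro _ ⟨i, j, hij, rfl⟩
    obtain ⟨α, hα⟩ := hN i j hij
    have e : xx A 0 ^ i * xx A 1 ^ j = α ⬝ᵥ g + (xx A 0 ^ i * xx A 1 ^ j - α ⬝ᵥ g) := by ring
    rw [e]
    refine Submodule.add_mem_sup (naka_dot_mem g α) ?_
    rw [Ideal.smul_eq_mul, ← pow_succ']
    exact hα
  obtain ⟨f, hf1, hf⟩ := Submodule.exists_sub_one_mem_and_smul_le_of_fg_of_le_sup hfg le_rfl hle
  have hf' : ∀ b ∈ mA A ^ N, f * b ∈ Ideal.span (Set.range g) := fun b hb =>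
    hf (Submodule.smul_mem_pointwise_smul b f _ hb)
  have hχf : χ f = 1 := by
    have := naka_chi χ hχ hf1
    rw [map_sub, map_one] at this
    exact sub_eq_zero.1 this
  have hw : ∀ ρ ∈ mA A ^ (N + 1), ∃ w : Fin 3 → A, (∀ k, w k ∈ mA A) ∧ w ⬝ᵥ g = f * ρ := by
    intro ρ hρ
    rw [pow_succ'] at hρ
    refine Submodule.mul_induction_on hρ ?_ ?_
    · intro a ha b hb
      obtain ⟨α, hα⟩ := naka_mem_span g (hf' b hb)
      refine ⟨a • α, fun k => Ideal.mul_mem_right _ _ ha, ?_⟩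
      rw [smul_dotProduct, hα, smul_eq_mul]
      ring
    · rintro a b ⟨w, h1, h2⟩ ⟨w', h1', h2'⟩
      refine ⟨w + w', fun k => Ideal.add_mem _ (h1 k) (h1' k), ?_⟩
      rw [add_dotProduct, h2, h2', mul_add]
  choose w hw1 hw2 using fun k => hw _ (hVW k)
  let M : Matrix (Fin 3) (Fin 3) A := f • U + Matrix.of w
  have hM : M *ᵥ g = f • crossProduct V W := by
    funext k
    have e : (Matrix.of w *ᵥ g) k = w k ⬝ᵥ g := rfl
    simp only [M, Matrix.add_mulVec, Matrix.smul_mulVec, Pi.add_apply, Pi.smul_apply, e, hw2,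
      smul_eq_mul]
    ring
  have hdet : χ M.det = χ U.det := by
    rw [AlgHom.map_det, AlgHom.map_det]
    congr 1
    ext k l
    simp [M, hχf, naka_chi χ hχ (hw1 k l)]
  refine ⟨f, M.det, V ᵥ* M, W ᵥ* M, by rw [hχf]; exact one_ne_zero, by rwa [hdet], fun j => ?_,
    ?_, ?_, ?_⟩
  · refine hf' _ (Ideal.pow_mem_pow ?_ N)
    refine Ideal.subset_span ?_
    fin_cases j <;> simp
  · rw [← Matrix.dotProduct_mulVec, hM, dotProduct_smul, dot_self_cross, smul_zero]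
  · rw [← Matrix.dotProduct_mulVec, hM, dotProduct_smul, dot_cross_self, smul_zero]
  · rw [naka_cross, ← Matrix.mulVec_smul, ← hM, Matrix.mulVec_mulVec, Matrix.adjugate_mul,
      Matrix.smul_mulVec, Matrix.one_mulVec]

end Vale.Agent.P266
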