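import Vale.Agent.P266.Frob
import Vale.Agent.P266.Local
import Vale.Agent.P266.Domain
import Vale.Agent.P266.Free
import Vale.Agent.P266.Naka

namespace Vale.Agent.P266

open MvPolynomial Matrix

variable {A : Type} [CommRing A] [Algebra S A] [Algebra ℂ A] [IsScalarTower ℂ S A]
variable {b : Module.Basis (Fin 8) S A}

theorem abstract_main (h : Frob b) (hl : Loc b)
    (hr : ∃ (r' : A) (s : S), s ≠ 0 ∧ r' * rJ b = algebraMap S A s) (N : ℕ)
    (hN : ∀ i j, i + j = N → ∃ α : Fin 3 → A,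
      xx A 0 ^ i * xx A 1 ^ j - α ⬝ᵥ gg b ∈ mA A ^ (N + 1))
    (V W : Fin 3 → A) (U : Matrix (Fin 3) (Fin 3) A) (hU : ev b U.det ≠ 0)
    (hVW : ∀ k, crossProduct V W k - (U *ᵥ gg b) k ∈ mA A ^ (N + 1)) :
    ∃ (B : Type) (_ : CommRing B) (_ : IsDomain B) (_ : Algebra ℂ B),
      Algebra.FiniteType ℂ B ∧ Module.Free B (Derivation ℂ B B) ∧ ¬ IsRegularRing B := by
  obtain ⟨χ, hχ⟩ := exists_ev h hl
  choose D hD1 hD2 using exists_der h
  have hχx : ∀ i, χ (xx A i) = 0 := fun i => by rw [hχ, ev_xx h]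
  obtain ⟨f, δ, V', W', hf, hδ, hmem, hV, hW, hc⟩ :=
    exact_syz χ hχx (gg b) N hN V W U (by rwa [hχ]) hVW
  have hg : gg b = ![D 0 (b 1), D 1 (b 1), - rJ b] := by simp [gg, hD1]
  have hmem' : ∀ j, f * xx A j ^ N ∈ Ideal.span {D 0 (b 1), D 1 (b 1), rJ b} := by
    intro j
    refine Ideal.span_le.2 ?_ (hmem j)
    rintro _ ⟨k, rfl⟩
    rw [hg]
    fin_cases k
    · exact Ideal.subset_span (by simp)
    · exact Ideal.subset_span (by simp)
    · exact neg_mem (Ideal.subset_span (by simp))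
  have : Module.Finite S A := Module.Finite.of_basis b
  have : Module.Free S A := Module.Free.of_basis b
  have htf : ∀ (s : S) (a : A), s ≠ 0 → algebraMap S A s * a = 0 → a = 0 := by
    intro s a hs ha
    rw [← Algebra.smul_def] at ha
    exact (smul_eq_zero.1 ha).resolve_left hs
  have := isReduced h hr
  have hdom : IsDomain A := isDomain_of (fun a => Algebra.IsIntegral.isIntegral a) htf D (rJ b)
    (b 1) f hD2 χ hf (fun u a hu ha => eq_zero_of_ev h hl (by rwa [← hχ]) ha)
    (fun n α β => reg_seq b n) N hmem'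
  have hinj : ∀ s : S, s ≠ 0 → algebraMap S A s ≠ 0 := fun s hs h0 =>
    one_ne_zero (htf s 1 hs (by rw [h0, zero_mul]))
  have hr0 : rJ b ≠ 0 := by
    obtain ⟨r', s, hs, e⟩ := hr
    intro h0
    exact hinj s hs (by rw [← e, h0, mul_zero])
  have hfd : χ (f * δ) ≠ 0 := by rw [map_mul]; exact mul_ne_zero hf hδ
  have hfd0 : f * δ ≠ 0 := fun h0 => hfd (by rw [h0, map_zero])
  have hfree := free_der D (rJ b) (b 1) f δ hr0
    (fun i j => by
      rw [xx, hD2, pderiv_X]
      by_cases e : i = j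
      · subst e; simp
      · simp [e, Pi.single_apply, Ne.symm e])
    (fun a => by rw [hD1, hD1, hD1, hD1]; exact bracket_dvd h hr _ _)
    (fun w hw a => casimir_smul h w hw a) (hinj _ (X_ne_zero 0))
    (fun n α β => reg_seq b n) N hmem' V' W' (hg ▸ hV) (hg ▸ hW) (hg ▸ hc) hfd0
  have : Algebra.FiniteType ℂ A := Algebra.FiniteType.trans (S := S) inferInstance inferInstance
  refine ⟨Localization.Away (f * δ), inferInstance,
    IsLocalization.isDomain_localization (powers_le_nonZeroDivisors_of_noZeroDivisors hfd0),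
    inferInstance, Algebra.FiniteType.trans (S := A) inferInstance inferInstance, hfree,
    not_regular h hl (by rwa [← hχ])⟩

end Vale.Agent.P266
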