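import Vale.Agent.P266.Defs

namespace Vale.Agent.P266

open MvPolynomial

/-- Eight commuting matrices with a cyclic vector give a commutative algebra. -/
theorem exists_algebra (L : Fin 8 → Matrix (Fin 8) (Fin 8) S)
    (hc : ∀ k l, L k * L l = L l * L k) (h0 : L 0 = 1)
    (hcol : ∀ k i, L k i 0 = if i = k then 1 else 0) :
    ∃ (A : Type) (_ : CommRing A) (_ : Algebra S A) (_ : Algebra ℂ A) (_ : IsScalarTower ℂ S A)
      (b : Module.Basis (Fin 8) S A), b 0 = 1 ∧ ∀ k, Algebra.leftMulMatrix b (b k) = L k := by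
  have col : ∀ (N : Matrix (Fin 8) (Fin 8) S) i j, (N * L j) i 0 = N i j := fun N i j => by
    simp [Matrix.mul_apply, hcol]
  have mem : ∀ v : Fin 8 → S, ∑ k, v k • L k ∈ Subalgebra.centralizer S (Set.range L) :=
    fun v => sum_mem fun k _ => Subalgebra.smul_mem _
      ((Subalgebra.mem_centralizer_iff S).2 (by rintro _ ⟨j, rfl⟩; exact hc j k)) _
  have c0 : ∀ (v : Fin 8 → S) i, (∑ k, v k • L k) i 0 = v i := fun v i => by
    simp [Matrix.sum_apply, hcol]
  have inj : ∀ N ∈ Subalgebra.centralizer S (Set.range L), (∀ i, N i 0 = 0) → N = 0 := by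
    intro N hN h
    ext1 i j
    rw [← col N i j, ← (Subalgebra.mem_centralizer_iff S).1 hN (L j) ⟨j, rfl⟩]
    simp [Matrix.mul_apply, h]
  have key : ∀ N ∈ Subalgebra.centralizer S (Set.range L), ∑ k, N k 0 • L k = N := fun N hN =>
    sub_eq_zero.1 (inj _ (sub_mem (mem _) hN) fun i => by rw [Matrix.sub_apply, c0, sub_self])
  letI : CommRing (Subalgebra.centralizer S (Set.range L)) :=
    { (inferInstance : Ring (Subalgebra.centralizer S (Set.range L))) with
      mul_comm := fun a b => Subtype.ext <| by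
        change a.1 * b.1 = b.1 * a.1
        rw [← key a.1 a.2, Finset.sum_mul, Finset.mul_sum]
        refine Finset.sum_congr rfl fun k _ => ?_
        rw [smul_mul_assoc, mul_smul_comm,
          (Subalgebra.mem_centralizer_iff S).1 b.2 (L k) ⟨k, rfl⟩] }
  let e : Subalgebra.centralizer S (Set.range L) ≃ₗ[S] (Fin 8 → S) :=
    { toFun := fun N i => N.1 i 0
      map_add' := fun _ _ => rfl
      map_smul' := fun _ _ => rfl
      invFun := fun v => ⟨_, mem v⟩
      left_inv := fun N => Subtype.ext (key N.1 N.2)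
      right_inv := fun v => funext (c0 v) }
  have hb : ∀ k, (Module.Basis.ofEquivFun e k).1 = L k := fun k => by
    rw [Module.Basis.coe_ofEquivFun]
    change ∑ j, (Pi.single k 1 : Fin 8 → S) j • L j = L k
    simp [Pi.single_apply]
  refine ⟨Subalgebra.centralizer S (Set.range L), inferInstance, Subalgebra.algebra _,
    Subalgebra.algebra' _, inferInstance, Module.Basis.ofEquivFun e,
    Subtype.ext ((hb 0).trans h0), fun k => ?_⟩
  ext1 i j
  rw [Algebra.leftMulMatrix_eq_repr_mul, Module.Basis.ofEquivFun_repr_apply]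
  change ((Module.Basis.ofEquivFun e k).1 * (Module.Basis.ofEquivFun e j).1) i 0 = _
  rw [hb, hb, col]

/-- Seven identities give the commutation of all eight matrices. -/
theorem all_commute (L : Fin 8 → Matrix (Fin 8) (Fin 8) S) (h0 : L 0 = 1)
    (h12 : L 1 * L 2 = L 2 * L 1) (h13 : L 1 * L 3 = L 3 * L 1) (h23 : L 2 * L 3 = L 3 * L 2)
    (a12 : L 1 * L 2 = ∑ m, L 1 m 2 • L m) (a11 : L 1 * L 1 = ∑ m, L 1 m 1 • L m)
    (a23 : L 2 * L 3 = ∑ m, L 2 m 3 • L m) (a14 : L 1 * L 4 = ∑ m, L 1 m 4 • L m)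
    (z5 : L 1 5 2 = 0) (z6 : L 1 6 2 = 0) (z7 : L 1 7 2 = 0) (n4 : L 1 4 2 ≠ 0)
    (u4 : L 1 4 1 = 0) (u7 : L 1 7 1 = 0) (v4 : L 2 4 3 = 0) (v7 : L 2 7 3 = 0)
    (nd : L 1 5 1 * L 2 6 3 - L 1 6 1 * L 2 5 3 ≠ 0) (w7 : L 1 7 4 = 1) :
    ∀ k l, L k * L l = L l * L k := by
  obtain ⟨C, hC⟩ : ∃ C, C = Subalgebra.centralizer S {L 1, L 2, L 3} := ⟨_, rfl⟩
  obtain ⟨B, hB⟩ : ∃ B, B = Subalgebra.centralizer S (C : Set (Matrix (Fin 8) (Fin 8) S)) :=
    ⟨_, rfl⟩
  have mB : ∀ N, N ∈ B ↔ ∀ M ∈ C, M * N = N * M := fun N => by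
    rw [hB, Subalgebra.mem_centralizer_iff]
    rfl
  have mC : ∀ N, N ∈ C ↔ L 1 * N = N * L 1 ∧ L 2 * N = N * L 2 ∧ L 3 * N = N * L 3 := fun N => by
    rw [hC, Subalgebra.mem_centralizer_iff]
    simp
  have c1 : L 1 ∈ C := (mC _).2 ⟨rfl, h12.symm, h13.symm⟩
  have c2 : L 2 ∈ C := (mC _).2 ⟨h12, rfl, h23.symm⟩
  have c3 : L 3 ∈ C := (mC _).2 ⟨h13, h23, rfl⟩
  have sub : ∀ N ∈ B, N ∈ C := fun N hN =>
    (mC N).2 ⟨(mB N).1 hN _ c1, (mB N).1 hN _ c2, (mB N).1 hN _ c3⟩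
  have sat : ∀ (s : S) N, s ≠ 0 → s • N ∈ B → N ∈ B := fun s N hs hN => (mB N).2 fun M hM => by
    have k := (mB _).1 hN M hM
    rw [smul_mul_assoc, mul_smul_comm] at k
    exact smul_right_injective _ hs k
  have b0 : L 0 ∈ B := h0 ▸ one_mem B
  have b1 : L 1 ∈ B := (mB _).2 fun M hM => ((mC M).1 hM).1.symm
  have b2 : L 2 ∈ B := (mB _).2 fun M hM => ((mC M).1 hM).2.1.symm
  have b3 : L 3 ∈ B := (mB _).2 fun M hM => ((mC M).1 hM).2.2.symm
  have low : ∀ v : Fin 8 → S, v 0 • L 0 + v 1 • L 1 + v 2 • L 2 + v 3 • L 3 ∈ B := fun v =>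
    add_mem (add_mem (add_mem (B.smul_mem b0 _) (B.smul_mem b1 _)) (B.smul_mem b2 _))
      (B.smul_mem b3 _)
  rw [Fin.sum_univ_eight] at a12 a11 a23 a14
  have b4 : L 4 ∈ B := by
    refine sat _ _ n4 ?_
    have k := sub_mem (mul_mem b1 b2) (low fun m => L 1 m 2)
    rw [a12, z5, z6, z7] at k
    simpa using k
  have p : L 1 5 1 • L 5 + L 1 6 1 • L 6 ∈ B := by
    have k := sub_mem (mul_mem b1 b1) (low fun m => L 1 m 1)
    rw [a11, u4, u7] at k
    convert k using 1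
    simp only [zero_smul]
    abel
  have q : L 2 5 3 • L 5 + L 2 6 3 • L 6 ∈ B := by
    have k := sub_mem (mul_mem b2 b3) (low fun m => L 2 m 3)
    rw [a23, v4, v7] at k
    convert k using 1
    simp only [zero_smul]
    abel
  have b5 : L 5 ∈ B := by
    refine sat _ _ nd ?_
    convert sub_mem (B.smul_mem p (L 2 6 3)) (B.smul_mem q (L 1 6 1)) using 1
    module
  have b6 : L 6 ∈ B := by
    refine sat _ _ nd ?_
    convert sub_mem (B.smul_mem q (L 1 5 1)) (B.smul_mem p (L 2 5 3)) using 1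
    module
  have b7 : L 7 ∈ B := by
    have k := sub_mem (sub_mem (sub_mem (sub_mem (mul_mem b1 b4) (low fun m => L 1 m 4))
      (B.smul_mem b4 (L 1 4 4))) (B.smul_mem b5 (L 1 5 4))) (B.smul_mem b6 (L 1 6 4))
    rw [a14, w7] at k
    convert k using 1
    simp only [one_smul]
    abel
  have all : ∀ k, L k ∈ B := fun k => by
    fin_cases k
    exacts [b0, b1, b2, b3, b4, b5, b6, b7]
  exact fun k l => (mB _).1 (all l) _ (sub _ (all k))

/-- An element that is a unit in the fibre over some point divides a nonzero polynomial. -/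
theorem exists_norm {A : Type} [CommRing A] [Algebra S A] [Algebra ℂ A] [IsScalarTower ℂ S A]
    (b : Module.Basis (Fin 8) S A) (r u : A) (c : ℂ) (hc : c ≠ 0)
    (h : r * u - algebraMap ℂ A c ∈ Ideal.span {xx A 0, xx A 1 - 1}) :
    ∃ (r' : A) (s : S), s ≠ 0 ∧ r' * r = algebraMap S A s := by
  let ev : S →+* ℂ := MvPolynomial.eval ![0, 1]
  let φ : A →+* Matrix (Fin 8) (Fin 8) ℂ :=
    ev.mapMatrix.comp (Algebra.leftMulMatrix b).toRingHom
  have hφ : ∀ s : S, φ (algebraMap S A s) = Matrix.scalar _ (ev s) := fun s => by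
    change ev.mapMatrix (Algebra.leftMulMatrix b (algebraMap S A s)) = _
    rw [AlgHom.commutes]
    ext i j
    simp [Matrix.algebraMap_matrix_apply, Matrix.diagonal_apply, apply_ite ev]
  have hk : Ideal.span {xx A 0, xx A 1 - 1} ≤ RingHom.ker φ := by
    rw [Ideal.span_le]
    rintro _ (rfl | rfl)
    · change φ _ = 0
      rw [xx, hφ]
      simp [ev]
    · change φ _ = 0
      rw [map_sub, map_one, xx, hφ]
      simp [ev]
  have k : φ r * φ u = Matrix.scalar _ c := by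
    have k1 : φ _ = 0 := hk h
    rw [map_sub, map_mul, sub_eq_zero, IsScalarTower.algebraMap_apply ℂ S A, hφ] at k1
    simpa [ev] using k1
  refine ⟨b.equivFun.symm ((Algebra.leftMulMatrix b r).adjugate.mulVec (b.repr 1)),
    (Algebra.leftMulMatrix b r).det, fun h0 => ?_, ?_⟩
  · have k2 := congrArg Matrix.det k
    have k3 : (φ r).det = 0 := by
      change (ev.mapMatrix (Algebra.leftMulMatrix b r)).det = 0
      rw [← RingHom.map_det, h0, map_zero]
    rw [Matrix.det_mul, k3, zero_mul] at k2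
    simp [hc] at k2
    exact hc (pow_eq_zero_iff (n := 8) (by norm_num) |>.1 k2.symm)
  · apply b.equivFun.injective
    rw [mul_comm, Module.Basis.equivFun_apply, ← Algebra.leftMulMatrix_mulVec_repr,
      ← Module.Basis.equivFun_apply, LinearEquiv.apply_symm_apply, Matrix.mulVec_mulVec,
      Matrix.mul_adjugate, Algebra.algebraMap_eq_smul_one, map_smul, Matrix.smul_mulVec,
      Matrix.one_mulVec, Module.Basis.equivFun_apply]

/-- From a staircase of monomials to all monomials of degree 17. -/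
theorem all_monomials {A : Type} [CommRing A] [Algebra S A] [Algebra ℂ A] (g : Fin 3 → A)
    (h : ∀ p ∈ [(1, 13), (6, 8), (8, 6), (13, 1), (0, 15), (15, 0), (5, 12), (12, 5)],
      ∃ (c : ℂ) (α : Fin 3 → A), c ≠ 0 ∧
        algebraMap ℂ A c * (xx A 0 ^ p.1 * xx A 1 ^ p.2) - α ⬝ᵥ g ∈ mA A ^ (p.1 + p.2 + 1)) :
    ∀ i j, i + j = 17 → ∃ α : Fin 3 → A,
      xx A 0 ^ i * xx A 1 ^ j - α ⬝ᵥ g ∈ mA A ^ (17 + 1) := by
  intro i j hij
  have ex : ∀ i ≤ 17, ∃ p ∈ [(1, 13), (6, 8), (8, 6), (13, 1), (0, 15), (15, 0), (5, 12), (12, 5)],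
      p.1 ≤ i ∧ p.2 ≤ 17 - i := by decide
  obtain ⟨p, hp, h1, h2⟩ := ex i (by omega)
  obtain ⟨c, α, hc, hα⟩ := h p hp
  obtain ⟨a, rfl⟩ := Nat.exists_eq_add_of_le h1
  obtain ⟨d, rfl⟩ := Nat.exists_eq_add_of_le (show p.2 ≤ j by omega)
  have m0 : xx A 0 ∈ mA A := Ideal.subset_span (by simp)
  have m1 : xx A 1 ∈ mA A := Ideal.subset_span (by simp)
  have k := Ideal.mul_mem_left _ (algebraMap ℂ A c⁻¹) (Ideal.mul_mem_mul
    (Ideal.mul_mem_mul (Ideal.pow_mem_pow m0 a) (Ideal.pow_mem_pow m1 d)) hα)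
  rw [← pow_add, ← pow_add, show a + d + (p.1 + p.2 + 1) = 17 + 1 by omega] at k
  refine ⟨(algebraMap ℂ A c⁻¹ * (xx A 0 ^ a * xx A 1 ^ d)) • α, ?_⟩
  have e : algebraMap ℂ A c⁻¹ * algebraMap ℂ A c = 1 := by
    rw [← map_mul, inv_mul_cancel₀ hc, map_one]
  convert k using 1
  rw [smul_dotProduct, smul_eq_mul]
  linear_combination (-(xx A 0 ^ (p.1 + a) * xx A 1 ^ (p.2 + d))) * e

end Vale.Agent.P266
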