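import Vale.Agent.P266.Refl
import Vale.Agent.P266.Abstract
import Vale.Agent.P266.Build

/-! The finite checks on a multiplication table, and what they prove. -/

namespace Vale.Agent.P266

open MvPolynomial Matrix Pl

abbrev Tab : Type := Nat → Nat → Nat → Pl

noncomputable section

def ckComm (T : Tab) (a b : Nat) : Bool :=
  all8 fun i => all8 fun j => eqZ top (dot8 top (fun m => T a m i) (T b j) nil)
    (dot8 top (fun m => T b m i) (T a j) nil)

def ckAss (T : Tab) (a b : Nat) : Bool :=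
  all8 fun i => all8 fun j => eqZ top (dot8 top (fun m => T a m i) (T b j) nil)
    (dot8 top (T a b) (fun m => T m j i) nil)

def dN (k : Nat) : Nat := nth 0 [7, 4, 5, 6, 1, 2, 3, 0] k

def ckOne (T : Tab) : Bool :=
  all8 fun i => all8 fun j => eqZ top (T 0 j i) (ifq i j one) && (eqZ top (T j 0 i) (ifq i j one) &&
    eqZ top (T i j 7) (ifq j (dN i) one))

def ckLoc (T : Tab) : Bool :=
  all8 fun i => all8 fun j => all8 fun k =>
    Nat.beq i 0 || (Nat.beq j 0 || (Nat.beq k 7 || vz 0 0 (T i j k)))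

def ckSmall (T : Tab) : Bool :=
  isZ top (T 1 2 5) && (isZ top (T 1 2 6) && (isZ top (T 1 1 4) && (isZ top (T 2 3 4) &&
    (nz 1 1 (T 1 2 4) &&
      nz 1 1 (add (mul top (T 1 1 5) (T 2 3 6)) (neg (mul top (T 1 1 6) (T 2 3 5))))))))

def ckG (T : Tab) (G : Nat → Nat → Pl) : Bool :=
  all8 fun k =>
    eqZ top (sum8 fun a => dot8 top (fun c => T k c a) (fun c => der0 (T 1 a c)) nil) (G 0 (dN k)) &&
    (eqZ top (sum8 fun a => dot8 top (fun c => T k c a) (fun c => der1 (T 1 a c)) nil) (G 1 (dN k)) &&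
    eqZ top (sum8 fun l => T l (dN l) k) (neg (G 2 k)))

def ckMon (T : Tab) (G : Nat → Nat → Pl) (i j : Nat) (c : Nat) (α β γ : List Pl) : Bool :=
  !Nat.beq c 0 && chk (upto (i + j)) T [(nth nil α, G 0), (nth nil β, G 1), (nth nil γ, G 2)]
    fun m => ifq m 0 (cons i j c 0 0 0 nil)

def ckHB (T : Tab) (G : Nat → Nat → Pl) (v w v' w' α β γ : List Pl) : Bool :=
  chk (upto 17) T [(nth nil v, nth nil w), (negV (nth nil v'), nth nil w'),
    (negV (nth nil α), G 0), (negV (nth nil β), G 1), (negV (nth nil γ), G 2)] fun _ => nil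

def ckFib (T : Tab) (G : Nat → Nat → Pl) (u : List Pl) (c : Nat) : Bool :=
  !Nat.beq c 0 && all8 fun m => vz 0 1 (add (bil top T (sym (dotL top [(nth nil u, G 2)])) m)
    (ifq m 0 (cons 0 0 c 0 0 0 nil)))

/-- The value in the polynomial ring. -/
abbrev evS (ρ : ℂ) (p : Pl) : S := Pl.ev (X 0) (X 1) (C ρ) p

/-- The matrices of multiplication. -/
def LL (ρ : ℂ) (T : Tab) (k : Fin 8) : Matrix (Fin 8) (Fin 8) S :=
  Matrix.of fun i j => evS ρ (T k j i)

variable {ρ : ℂ} {T : Tab} {G : Nat → Nat → Pl}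

theorem rhoS (hρ : ρ * ρ = 237) : (C ρ : S) * C ρ = 237 := by
  rw [← map_mul, hρ]; exact map_ofNat C 237

theorem ckComm_sound (hρ : ρ * ρ = 237) (a b : Fin 8) (h : ckComm T a b = true) :
    LL ρ T a * LL ρ T b = LL ρ T b * LL ρ T a := by
  refine Matrix.ext fun i j => ?_
  have := ev_eqZ (x := (X 0 : S)) (y := X 1) (ρ := C ρ) kill_top (all8_true (all8_true h i) j)
  rw [ev_dot8 kill_top (rhoS hρ), ev_dot8 kill_top (rhoS hρ)] at this
  exact this

theorem ckAss_sound (hρ : ρ * ρ = 237) (a b : Fin 8) (h : ckAss T a b = true) :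
    LL ρ T a * LL ρ T b = ∑ m, LL ρ T a m b • LL ρ T m := by
  refine Matrix.ext fun i j => ?_
  have := ev_eqZ (x := (X 0 : S)) (y := X 1) (ρ := C ρ) kill_top (all8_true (all8_true h i) j)
  rw [ev_dot8 kill_top (rhoS hρ), ev_dot8 kill_top (rhoS hρ)] at this
  rw [Matrix.sum_apply]
  exact this

theorem dN_eq (k : Fin 8) : dN k = dl k := by
  fin_cases k <;> rfl

theorem ckOne_sound (h : ckOne T = true) (i j : Fin 8) :
    evS ρ (T 0 j i) = (if i = j then 1 else 0) ∧ evS ρ (T j 0 i) = (if i = j then 1 else 0) ∧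
      evS ρ (T i j 7) = if j = dl i then 1 else 0 := by
  have := all8_true (all8_true h i) j
  simp only [Bool.and_eq_true] at this
  obtain ⟨h1, h2, h3⟩ := this
  refine ⟨(ev_eqZ kill_top h1).trans ?_, (ev_eqZ kill_top h2).trans ?_,
    (ev_eqZ kill_top h3).trans ?_⟩ <;> simp only [ev_ifq, ev_one, dN_eq, Fin.val_inj]

theorem eval_evS (u v : Nat) (p : Pl) :
    eval ![(u : ℂ), (v : ℂ)] (evS ρ p) = Pl.ev (u : ℂ) (v : ℂ) ρ p := by
  rw [evS, map_ev]; simp

theorem evS_ne (hρ : ρ * ρ = 237) {u v : Nat} {p : Pl} (h : nz u v p = true) : evS ρ p ≠ 0 :=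
  fun e => ev_nz hρ h (by rw [← eval_evS, e, map_zero])

theorem cc_evS (p : Pl) :
    constantCoeff (evS ρ p) = Pl.ev ((0 : Nat) : ℂ) ((0 : Nat) : ℂ) ρ p := by
  rw [evS, map_ev]; simp

theorem exists_table (hρ : ρ * ρ = 237) (h1 : ckOne T = true) (h2 : ckSmall T = true)
    (h12 : ckComm T 1 2 = true) (h13 : ckComm T 1 3 = true) (h23 : ckComm T 2 3 = true)
    (a12 : ckAss T 1 2 = true) (a11 : ckAss T 1 1 = true) (a23 : ckAss T 2 3 = true)
    (a14 : ckAss T 1 4 = true) :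
    ∃ (A : Type) (_ : CommRing A) (_ : Algebra S A) (_ : Algebra ℂ A) (_ : IsScalarTower ℂ S A)
      (b : Module.Basis (Fin 8) S A), b 0 = 1 ∧
        ∀ k, Algebra.leftMulMatrix b (b k) = LL ρ T k := by
  have h0 : LL ρ T 0 = 1 := Matrix.ext fun i j => by
    rw [Matrix.one_apply]; exact (ckOne_sound h1 i j).1
  simp only [ckSmall, Bool.and_eq_true] at h2
  obtain ⟨z1, z2, z3, z4, n1, n2⟩ := h2
  have n3 := evS_ne hρ n2
  rw [evS, ev_add, ev_neg, ev_mul kill_top (rhoS hρ), ev_mul kill_top (rhoS hρ),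
    ← sub_eq_add_neg] at n3
  refine exists_algebra _ (all_commute _ h0 (ckComm_sound hρ 1 2 h12) (ckComm_sound hρ 1 3 h13)
    (ckComm_sound hρ 2 3 h23) (ckAss_sound hρ 1 2 a12) (ckAss_sound hρ 1 1 a11)
    (ckAss_sound hρ 2 3 a23) (ckAss_sound hρ 1 4 a14) (ev_isZ kill_top _ z1)
    (ev_isZ kill_top _ z2) (ckOne_sound h1 1 2).2.2 (evS_ne hρ n1) (ev_isZ kill_top _ z3)
    (ckOne_sound h1 1 1).2.2 (ev_isZ kill_top _ z4) (ckOne_sound h1 2 3).2.2 n3
    (ckOne_sound h1 1 4).2.2) h0 fun k i => (ckOne_sound h1 i k).2.1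

section

variable {A : Type} [CommRing A] [Algebra S A] [Algebra ℂ A] [IsScalarTower ℂ S A]
variable {b : Module.Basis (Fin 8) S A}

/-- The element of the algebra with given coordinates. -/
abbrev evA (ρ : ℂ) (b : Module.Basis (Fin 8) S A) (v : Nat → Pl) : A :=
  evV (xx A 0) (xx A 1) (algebraMap ℂ A ρ) b v

theorem alg_evS (p : Pl) :
    algebraMap S A (evS ρ p) = Pl.ev (xx A 0) (xx A 1) (algebraMap ℂ A ρ) p := by
  rw [evS, map_ev, IsScalarTower.algebraMap_apply ℂ S A]; rfl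

theorem evA_eq (v : Nat → Pl) : evA ρ b v = ∑ k : Fin 8, evS ρ (v k) • b k := by
  simp only [evA, evV, Algebra.smul_def, alg_evS]

theorem repr_table (hL : ∀ k, Algebra.leftMulMatrix b (b k) = LL ρ T k) (k l m : Fin 8) :
    b.repr (b k * b l) m = evS ρ (T k l m) := by
  rw [← Algebra.leftMulMatrix_eq_repr_mul, hL]; rfl

theorem mul_table (hL : ∀ k, Algebra.leftMulMatrix b (b k) = LL ρ T k) (k l : Fin 8) :
    b k * b l = evA ρ b (T k l) := by
  rw [evA_eq, ← b.sum_repr (b k * b l)]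
  simp only [repr_table hL]

theorem frob_of (hb : b 0 = 1) (hL : ∀ k, Algebra.leftMulMatrix b (b k) = LL ρ T k)
    (h1 : ckOne T = true) : Frob b :=
  ⟨hb, fun i j => (repr_table hL i j 7).trans (ckOne_sound h1 i j).2.2⟩

theorem loc_of (hL : ∀ k, Algebra.leftMulMatrix b (b k) = LL ρ T k) (h : ckLoc T = true) :
    Loc b := by
  intro i j k hi hj hk
  have := all8_true (all8_true (all8_true h i) j) k
  simp only [Bool.or_eq_true, Nat.beq_eq] at this
  rw [repr_table hL, cc_evS]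
  rcases this with e | e | e | e
  · exact absurd (Fin.ext e) hi
  · exact absurd (Fin.ext e) hj
  · exact absurd (Fin.ext e) hk
  · exact ev_vz e

theorem sum_dl (f : Fin 8 → A) : ∑ k, f (dl k) = ∑ k, f k := by
  simp only [Fin.sum_univ_eight]
  change f 7 + f 4 + f 5 + f 6 + f 1 + f 2 + f 3 + f 0 = _
  ring

theorem gg_eq (hρ : ρ * ρ = 237) (hL : ∀ k, Algebra.leftMulMatrix b (b k) = LL ρ T k)
    (h : ckG T G = true) : gg b = ![evA ρ b (G 0), evA ρ b (G 1), evA ρ b (G 2)] := by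
  have h' := fun k => all8_true h k
  simp only [Bool.and_eq_true] at h'
  have e0 : Dv b 0 (b 1) = evA ρ b (G 0) := by
    rw [evA_eq, ← sum_dl fun k => evS ρ (G 0 k) • b k]
    refine Finset.sum_congr rfl fun k _ => ?_
    have := ev_eqZ (x := (X 0 : S)) (y := X 1) (ρ := C ρ) kill_top (h' k).1
    simp only [ev_sum8, ev_dot8 kill_top (rhoS hρ), ← pderiv0_ev, dN_eq] at this
    rw [dL, hL, hL, evS, ← this]; rfl
  have e1 : Dv b 1 (b 1) = evA ρ b (G 1) := by
    rw [evA_eq, ← sum_dl fun k => evS ρ (G 1 k) • b k]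
    refine Finset.sum_congr rfl fun k _ => ?_
    have := ev_eqZ (x := (X 0 : S)) (y := X 1) (ρ := C ρ) kill_top (h' k).2.1
    simp only [ev_sum8, ev_dot8 kill_top (rhoS hρ), ← pderiv1_ev, dN_eq] at this
    rw [dL, hL, hL, evS, ← this]; rfl
  have e2 : - rJ b = evA ρ b (G 2) := by
    rw [neg_eq_iff_eq_neg, rJ, ← evV_negV]
    simp only [mul_table hL, evA, evV]
    rw [Finset.sum_comm]
    refine Finset.sum_congr rfl fun k _ => ?_
    have := ev_eqZ (x := xx A 0) (y := xx A 1) (ρ := algebraMap ℂ A ρ) kill_top (h' k).2.2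
    simp only [ev_sum8, dN_eq] at this
    rw [← Finset.sum_mul, this]; rfl
  rw [gg, e0, e1, e2]

theorem rhoA (hρ : ρ * ρ = 237) {R : Type} [CommRing R] (φ : A →+* R) :
    φ (algebraMap ℂ A ρ) * φ (algebraMap ℂ A ρ) = 237 := by
  rw [← map_mul, ← map_mul, hρ, map_ofNat, map_ofNat]

theorem table_map (hL : ∀ k, Algebra.leftMulMatrix b (b k) = LL ρ T k) {R : Type} [CommRing R]
    (φ : A →+* R) (k l : Fin 8) : φ (b k) * φ (b l) =
      evV (φ (xx A 0)) (φ (xx A 1)) (φ (algebraMap ℂ A ρ)) (fun k => φ (b k)) (T k l) := by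
  rw [← map_mul, mul_table hL, map_evV]

theorem chk_mem (hρ : ρ * ρ = 237) (hL : ∀ k, Algebra.leftMulMatrix b (b k) = LL ρ T k) {n : Nat}
    {L : List ((Nat → Pl) × (Nat → Pl))} {w : Nat → Pl} (h : chk (upto n) T L w = true) :
    (L.map fun uv => evA ρ b uv.1 * evA ρ b uv.2).sum - evA ρ b w ∈ mA A ^ (n + 1) := by
  have hk : Kill (upto n) (Ideal.Quotient.mk (mA A ^ (n + 1)) (xx A 0))
      (Ideal.Quotient.mk (mA A ^ (n + 1)) (xx A 1)) := by
    intro i j e
    have e' : n + 1 ≤ i + j := by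
      by_contra h'
      have : i + j ≤ n := by omega
      rw [← Nat.ble_eq] at this
      exact absurd (this.symm.trans e) (by decide)
    rw [← map_pow, ← map_pow, ← map_mul, Ideal.Quotient.eq_zero_iff_mem]
    refine Ideal.pow_le_pow_right e' ?_
    rw [pow_add]
    exact Ideal.mul_mem_mul (Ideal.pow_mem_pow (Ideal.subset_span (by simp)) _)
      (Ideal.pow_mem_pow (Ideal.subset_span (by simp)) _)
  have := chk_sound hk (rhoA hρ _) (table_map hL _) h
  rw [← Ideal.Quotient.eq, map_list_sum, List.map_map, map_evV, ← this]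
  simp only [Function.comp_def, map_mul, map_evV]

theorem ckMon_sound (hρ : ρ * ρ = 237) (hb : b 0 = 1)
    (hL : ∀ k, Algebra.leftMulMatrix b (b k) = LL ρ T k) (hG : ckG T G = true) {i j c : Nat}
    {α β γ : List Pl} (h : ckMon T G i j c α β γ = true) :
    ∃ (c : ℂ) (α : Fin 3 → A), c ≠ 0 ∧
      algebraMap ℂ A c * (xx A 0 ^ i * xx A 1 ^ j) - α ⬝ᵥ gg b ∈ mA A ^ (i + j + 1) := by
  simp only [ckMon, Bool.and_eq_true] at h
  refine ⟨c, ![evA ρ b (nth nil α), evA ρ b (nth nil β), evA ρ b (nth nil γ)], ?_, ?_⟩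
  · intro e
    rw [Nat.cast_eq_zero] at e
    rw [e] at h
    exact absurd h.1 (by decide)
  · have := neg_mem (chk_mem hρ hL h.2)
    rw [evA, evV_ifq hb] at this
    convert this using 1
    simp [gg_eq hρ hL hG, dotProduct, Fin.sum_univ_three, add_assoc]

theorem ckHB_sound (hρ : ρ * ρ = 237) (hL : ∀ k, Algebra.leftMulMatrix b (b k) = LL ρ T k)
    {v w v' w' α β γ : List Pl} (h : ckHB T G v w v' w' α β γ = true) :
    evA ρ b (nth nil v) * evA ρ b (nth nil w) - evA ρ b (nth nil v') * evA ρ b (nth nil w') -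
      (evA ρ b (nth nil α) * evA ρ b (G 0) + evA ρ b (nth nil β) * evA ρ b (G 1) +
        evA ρ b (nth nil γ) * evA ρ b (G 2)) ∈ mA A ^ (17 + 1) := by
  have := chk_mem hρ hL h
  convert this using 1
  have e : evA ρ b (fun _ => nil) = 0 := by simp [evA, evV]
  simp only [List.map_cons, List.sum_cons, List.map_nil, List.sum_nil, evA, evV_negV] at e ⊢
  rw [e]; ring

theorem ckFib_sound (hρ : ρ * ρ = 237) (hb : b 0 = 1)
    (hL : ∀ k, Algebra.leftMulMatrix b (b k) = LL ρ T k) (hG : ckG T G = true) {u : List Pl}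
    {c : Nat} (h : ckFib T G u c = true) :
    ∃ (r' : A) (s : S), s ≠ 0 ∧ r' * rJ b = algebraMap S A s := by
  simp only [ckFib, Bool.and_eq_true] at h
  refine exists_norm b (rJ b) (evA ρ b (nth nil u)) c ?_ ?_
  · intro e
    rw [Nat.cast_eq_zero] at e
    rw [e] at h
    exact absurd h.1 (by decide)
  · have e2 : - rJ b = evA ρ b (G 2) := congrFun (gg_eq hρ hL hG) 2
    have e3 := evV_dot (x := xx A 0) (y := xx A 1) kill_top (rhoA hρ (RingHom.id A))
      (mul_table hL) [(nth nil u, G 2)]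
    rw [← neg_mem_iff, ← Ideal.Quotient.eq_zero_iff_mem]
    obtain ⟨φ, hφ⟩ : ∃ φ, φ = Ideal.Quotient.mk (Ideal.span {xx A 0, xx A 1 - 1}) := ⟨_, rfl⟩
    have hx : φ (xx A 0) = (0 : Nat) := by
      rw [hφ, Nat.cast_zero, Ideal.Quotient.eq_zero_iff_mem]; exact Ideal.subset_span (by simp)
    have hy : φ (xx A 1) = (1 : Nat) := by
      rw [Nat.cast_one, ← map_one φ, hφ, Ideal.Quotient.eq]; exact Ideal.subset_span (by simp)
    have e4 : -(rJ b * evA ρ b (nth nil u) - algebraMap ℂ A c) =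
        evA ρ b (bil top T (sym (dotL top [(nth nil u, G 2)]))) +
          evA ρ b fun m => ifq m 0 (cons 0 0 c 0 0 0 nil) := by
      rw [evA, evA, evA, evV_ifq hb]
      simp only [RingHom.id_apply, List.map_cons, List.sum_cons, List.map_nil, List.sum_nil] at e3
      rw [e3]
      simp only [evA] at e2
      rw [← e2]
      simp
      ring
    rw [← hφ, e4, map_add, map_evV, map_evV, hx, hy, evV, evV, ← Finset.sum_add_distrib]
    refine Finset.sum_eq_zero fun m _ => ?_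
    rw [← add_mul, ← ev_add, ev_vz (all8_true h.2 m), zero_mul]

/-- The value of the constant term of the first coordinate. -/
theorem chi_evA (hF : Frob b) (χ : A →ₐ[ℂ] ℂ) (hχ : ∀ u, χ u = ev b u) (v : Nat → Pl) :
    χ (evA ρ b v) = Pl.ev ((0 : Nat) : ℂ) ((0 : Nat) : ℂ) ρ (v 0) := by
  rw [hχ, evA_eq, ev, b.repr_sum_self, cc_evS]; rfl

end

def ckU (u00 u01 u02 u10 u11 u12 u20 u21 u22 : List Pl) : Bool :=
  nz 0 0 (nth nil u00 0) && (vz 0 0 (nth nil u01 0) && (vz 0 0 (nth nil u02 0) &&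
    (vz 0 0 (nth nil u10 0) && (nz 0 0 (nth nil u11 0) && (vz 0 0 (nth nil u12 0) &&
      (vz 0 0 (nth nil u20 0) && (vz 0 0 (nth nil u21 0) && nz 0 0 (nth nil u22 0))))))))

theorem main_of_checks {T : Tab} {G : Nat → Nat → Pl} (h1 : ckOne T = true)
    (h2 : ckSmall T = true)
    (h12 : ckComm T 1 2 = true) (h13 : ckComm T 1 3 = true) (h23 : ckComm T 2 3 = true)
    (a12 : ckAss T 1 2 = true) (a11 : ckAss T 1 1 = true) (a23 : ckAss T 2 3 = true)
    (a14 : ckAss T 1 4 = true) (hl : ckLoc T = true) (hG : ckG T G = true)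
    {u : List Pl} {c : Nat} (hf : ckFib T G u c = true)
    (hm : ∀ p ∈ [(1, 13), (6, 8), (8, 6), (13, 1), (0, 15), (15, 0), (5, 12), (12, 5)],
      ∃ c α β γ, ckMon T G p.1 p.2 c α β γ = true)
    {v0 v1 v2 w0 w1 w2 u00 u01 u02 u10 u11 u12 u20 u21 u22 : List Pl}
    (hU : ckU u00 u01 u02 u10 u11 u12 u20 u21 u22 = true)
    (b0 : ckHB T G v1 w2 v2 w1 u00 u01 u02 = true) (b1 : ckHB T G v2 w0 v0 w2 u10 u11 u12 = true)
    (b2 : ckHB T G v0 w1 v1 w0 u20 u21 u22 = true) :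
    ∃ (B : Type) (_ : CommRing B) (_ : IsDomain B) (_ : Algebra ℂ B),
      Algebra.FiniteType ℂ B ∧ Module.Free B (Derivation ℂ B B) ∧ ¬ IsRegularRing B := by
  obtain ⟨ρ, hρ⟩ : ∃ ρ : ℂ, ρ * ρ = 237 := by
    obtain ⟨z, hz⟩ := IsAlgClosed.exists_eq_mul_self (237 : ℂ)
    exact ⟨z, hz.symm⟩
  obtain ⟨A, _, _, _, _, b, hb, hL⟩ := exists_table hρ h1 h2 h12 h13 h23 a12 a11 a23 a14
  have hF := frob_of hb hL h1
  have hl' := loc_of hL hl
  refine abstract_main hF hl' (ckFib_sound hρ hb hL hG hf) 17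
    (all_monomials _ fun p hp => ?_)
    ![evA ρ b (nth nil v0), evA ρ b (nth nil v1), evA ρ b (nth nil v2)]
    ![evA ρ b (nth nil w0), evA ρ b (nth nil w1), evA ρ b (nth nil w2)]
    !![evA ρ b (nth nil u00), evA ρ b (nth nil u01), evA ρ b (nth nil u02);
      evA ρ b (nth nil u10), evA ρ b (nth nil u11), evA ρ b (nth nil u12);
      evA ρ b (nth nil u20), evA ρ b (nth nil u21), evA ρ b (nth nil u22)] ?_ fun k => ?_
  · obtain ⟨c, α, β, γ, h⟩ := hm p hp
    exact ckMon_sound hρ hb hL hG h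
  · obtain ⟨χ, hχ⟩ := exists_ev hF hl'
    simp only [ckU, Bool.and_eq_true] at hU
    obtain ⟨k0, k1, k2, k3, k4, k5, k6, k7, k8⟩ := hU
    rw [← hχ, Matrix.det_fin_three]
    simp only [Matrix.of_apply, Matrix.cons_val', Matrix.cons_val_zero, Matrix.cons_val_one,
      Matrix.cons_val_two, Matrix.cons_val_fin_one, Matrix.head_cons, Matrix.tail_cons,
      Matrix.head_fin_const, Matrix.cons_val, map_add, map_sub, map_mul, chi_evA hF χ hχ,
      ev_vz k1, ev_vz k2, ev_vz k3, ev_vz k5, ev_vz k6, ev_vz k7, mul_zero, zero_mul, sub_zero,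
      add_zero]
    exact mul_ne_zero (mul_ne_zero (ev_nz hρ k0) (ev_nz hρ k4)) (ev_nz hρ k8)
  · rw [gg_eq hρ hL hG]
    fin_cases k
    · convert ckHB_sound hρ hL b0 using 1
      simp [cross_apply, Matrix.mulVec, dotProduct, Fin.sum_univ_three]
    · convert ckHB_sound hρ hL b1 using 1
      simp [cross_apply, Matrix.mulVec, dotProduct, Fin.sum_univ_three]
    · convert ckHB_sound hρ hL b2 using 1
      simp [cross_apply, Matrix.mulVec, dotProduct, Fin.sum_univ_three]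

end

end Vale.Agent.P266
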