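import Mathlib

/-! Common definitions for the counterexample to the Lipman Zariski conjecture. -/

namespace Vale.Agent.P266

open MvPolynomial

/-- The polynomial ring in two variables. -/
abbrev S : Type := MvPolynomial (Fin 2) ℂ

/-- The index of the dual basis vector. -/
def dl : Fin 8 → Fin 8 := ![7, 4, 5, 6, 1, 2, 3, 0]

section

variable {A : Type} [CommRing A] [Algebra S A]

/-- The images of the two variables. -/
noncomputable def xx (A : Type) [CommRing A] [Algebra S A] (i : Fin 2) : A :=
  algebraMap S A (X i)

/-- The ideal generated by the two variables. -/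
noncomputable def mA (A : Type) [CommRing A] [Algebra S A] : Ideal A :=
  Ideal.span {xx A 0, xx A 1}

variable (b : Module.Basis (Fin 8) S A)

/-- The Casimir element. -/
noncomputable def rJ : A := ∑ k, b k * b (dl k)

/-- The entrywise partial derivative of the matrix of multiplication. -/
noncomputable def dL (i : Fin 2) (a : A) : Matrix (Fin 8) (Fin 8) S :=
  (Algebra.leftMulMatrix b a).map (pderiv i)

/-- The map that will be the derivation `rJ * ∂ i`. -/
noncomputable def Dv (i : Fin 2) (a : A) : A :=
  ∑ k, (Algebra.leftMulMatrix b (b k) * dL b i a).trace • b (dl k)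

/-- The basis starts with `1` and the last coordinate is a Frobenius form. -/
structure Frob : Prop where
  one : b 0 = 1
  pair : ∀ i j, b.repr (b i * b j) 7 = if j = dl i then 1 else 0

/-- The fibre over the origin is the local algebra with Hilbert function `1, 6, 1`. -/
def Loc : Prop :=
  ∀ i j k : Fin 8, i ≠ 0 → j ≠ 0 → k ≠ 7 → constantCoeff (b.repr (b i * b j) k) = 0

/-- Evaluation at the singular point. -/
noncomputable def ev (u : A) : ℂ := constantCoeff (b.repr u 0)

/-- The three functions whose syzygies are the derivations. -/
noncomputable def gg : Fin 3 → A := ![Dv b 0 (b 1), Dv b 1 (b 1), - rJ b]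

end

end Vale.Agent.P266
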