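import Vale.Agent.P266.Defs

namespace Vale.Agent.P266

open MvPolynomial

variable {A : Type} [CommRing A] [Algebra S A] [Algebra ℂ A] [IsScalarTower ℂ S A]
variable {b : Module.Basis (Fin 8) S A}

theorem frob_dl_dl (k : Fin 8) : dl (dl k) = k := by
  revert k
  decide

theorem frob_dl_inv : Function.Involutive dl := frob_dl_dl

omit [Algebra ℂ A] [IsScalarTower ℂ S A] in
theorem frob_repr (h : Frob b) (v : A) (j : Fin 8) : b.repr v j = b.repr (v * b (dl j)) 7 := by
  conv_rhs => rw [← b.sum_repr v, Finset.sum_mul]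
  simp [h.pair, frob_dl_inv.injective.eq_iff]

omit [Algebra ℂ A] [IsScalarTower ℂ S A] in
theorem frob_ext (h : Frob b) {v w : A} (e : ∀ c, b.repr (v * c) 7 = b.repr (w * c) 7) : v = w :=
  b.ext_elem fun j => by rw [frob_repr h v, frob_repr h w, e]

omit [Algebra ℂ A] [IsScalarTower ℂ S A] in
theorem frob_expand (h : Frob b) (v : A) : v = ∑ k, b.repr (v * b k) 7 • b (dl k) := by
  conv_lhs => rw [← b.sum_repr v, ← Equiv.sum_comp frob_dl_inv.toPerm]
  simp only [Function.Involutive.coe_toPerm, frob_repr h v, frob_dl_dl]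

omit [Algebra ℂ A] [IsScalarTower ℂ S A] in
theorem frob_dual (h : Frob b) (φ : A →ₗ[S] S) (c : A) :
    b.repr ((∑ k, φ (b k) • b (dl k)) * c) 7 = φ c := by
  have : b.coord 7 ∘ₗ LinearMap.mulLeft S (∑ k, φ (b k) • b (dl k)) = φ := b.ext fun j => by
    simp [Finset.sum_mul, h.pair, frob_dl_dl]
  exact LinearMap.congr_fun this c

omit [Algebra ℂ A] [IsScalarTower ℂ S A] in
theorem frob_trace (h : Frob b) (u : A) :
    (Algebra.leftMulMatrix b u).trace = b.repr (u * rJ b) 7 := by
  simp only [Matrix.trace, Matrix.diag, Algebra.leftMulMatrix_eq_repr_mul, rJ, Finset.mul_sum,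
    map_sum, Finsupp.finsetSum_apply, frob_repr h (u * b _), mul_assoc]

/-- the trace pairing with a fixed matrix -/
noncomputable def frobTr (b : Module.Basis (Fin 8) S A) (M : Matrix (Fin 8) (Fin 8) S) :
    A →ₗ[S] S :=
  Matrix.traceLinearMap _ S S ∘ₗ LinearMap.mulRight S M ∘ₗ (Algebra.leftMulMatrix b).toLinearMap

omit [Algebra ℂ A] [IsScalarTower ℂ S A] in
theorem frob_Dv (h : Frob b) (i : Fin 2) (a c : A) :
    b.repr (Dv b i a * c) 7 = (Algebra.leftMulMatrix b c * dL b i a).trace :=
  frob_dual h (frobTr b (dL b i a)) c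

omit [Algebra ℂ A] [IsScalarTower ℂ S A] in
theorem frob_dL_mul (i : Fin 2) (a a' : A) : dL b i (a * a') =
    dL b i a * Algebra.leftMulMatrix b a' + Algebra.leftMulMatrix b a * dL b i a' := by
  ext1 k l
  simp [dL, Matrix.mul_apply, Finset.sum_add_distrib, mul_comm, add_comm]

omit [Algebra ℂ A] [IsScalarTower ℂ S A] in
theorem frob_dL_alg (i : Fin 2) (s : S) :
    dL b i (algebraMap S A s) = Algebra.leftMulMatrix b (algebraMap S A (pderiv i s)) := by
  ext1 k l
  simp only [dL, AlgHom.commutes, Matrix.map_apply, Matrix.algebraMap_matrix_apply]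
  split_ifs <;> simp

omit [Algebra ℂ A] [IsScalarTower ℂ S A] in
theorem frob_Dv_mul (h : Frob b) (i : Fin 2) (a a' : A) :
    Dv b i (a * a') = a * Dv b i a' + a' * Dv b i a := frob_ext h fun c => by
  rw [add_mul, map_add, Finsupp.add_apply, mul_comm a (Dv b i a'), mul_comm a' (Dv b i a),
    mul_assoc, mul_assoc, frob_Dv h, frob_Dv h, frob_Dv h, frob_dL_mul, mul_add, Matrix.trace_add,
    add_comm, ← mul_assoc, ← mul_assoc, Matrix.trace_mul_cycle _ (dL b i a), ← map_mul, ← map_mul,
    mul_comm c a]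

omit [Algebra ℂ A] [IsScalarTower ℂ S A] in
theorem frob_Dv_alg (h : Frob b) (i : Fin 2) (s : S) :
    Dv b i (algebraMap S A s) = rJ b * algebraMap S A (pderiv i s) := frob_ext h fun c => by
  rw [frob_Dv h, frob_dL_alg, ← map_mul, frob_trace h]
  congr 2
  ring

omit [Algebra ℂ A] [IsScalarTower ℂ S A] in
theorem frob_tf (b : Module.Basis (Fin 8) S A) {s : S} (hs : s ≠ 0) {v : A}
    (h : algebraMap S A s * v = 0) : v = 0 := b.ext_elem fun j => by
  have := congrArg (fun u => b.repr u j) h
  simpa [← Algebra.smul_def, hs] using this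

theorem frob_comm_tr {R B n : Type} [CommRing R] [CommRing B] [Fintype n] [DecidableEq n]
    (L : B →+* Matrix n n R) (T0 T1 : Matrix n n R) (c a a' p q p' q' : B) :
    (L c * ((L p - (T0 * L a - L a * T0)) * (L q - (T1 * L a' - L a' * T1)) -
      (L p' - (T0 * L a' - L a' * T0)) * (L q' - (T1 * L a - L a * T1)))).trace =
      (L (c * (p * q - p' * q'))).trace := by
  have h1 : ∀ (x y z : B) (T : Matrix n n R),
      (L x * (L y * (T * L z))).trace = (L (x * y * z) * T).trace := fun x y z T => by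
    rw [← mul_assoc, ← mul_assoc, Matrix.trace_mul_cycle, ← map_mul, ← map_mul, mul_comm z]
  have h2 : ∀ (x y z : B) (T : Matrix n n R),
      (L x * (L y * (L z * T))).trace = (L (x * y * z) * T).trace := fun x y z T => by
    rw [← mul_assoc, ← mul_assoc, ← map_mul, ← map_mul]
  have h3 : ∀ (x y z : B) (T : Matrix n n R),
      (L x * (T * (L y * L z))).trace = (L (x * z * y) * T).trace := fun x y z T => by
    rw [← map_mul, ← mul_assoc, Matrix.trace_mul_cycle, ← map_mul]
    congr 3
    ring
  have h4 : ∀ x y z : B, (L x * (T0 * (L y * (T1 * L z)))).trace =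
      (L (x * z) * (T0 * (L y * T1))).trace := fun x y z => by
    rw [← mul_assoc, ← mul_assoc, ← mul_assoc, Matrix.trace_mul_comm, mul_comm x, map_mul]
    simp only [mul_assoc]
  have h5 : ∀ x y z : B, (L x * (T0 * (L y * (L z * T1)))).trace =
      (L x * (T0 * (L (y * z) * T1))).trace := fun x y z => by
    rw [map_mul, mul_assoc]
  have h6 : ∀ x y z : B, (L x * (L y * (T0 * (T1 * L z)))).trace =
      (L (x * y * z) * (T0 * T1)).trace := fun x y z => by
    rw [← mul_assoc T0, h1]
  have h7 : ∀ x y z : B, (L x * (L y * (T0 * (L z * T1)))).trace =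
      (L (x * y) * (T0 * (L z * T1))).trace := fun x y z => by
    rw [map_mul, mul_assoc]
  simp only [mul_sub, sub_mul, Matrix.trace_sub, mul_assoc, h4, h5, h6, h7]
  simp only [h1, h2, h3]
  simp only [← map_mul, mul_assoc, mul_comm a a', mul_comm q a, mul_comm q' a',
    map_sub, Matrix.trace_sub]
  ring

/-- `Dv` is a derivation extending `rJ * pderiv i`. -/
theorem exists_der (h : Frob b) (i : Fin 2) :
    ∃ D : Derivation ℂ A A, (∀ a, D a = Dv b i a) ∧
      ∀ s : S, D (algebraMap S A s) = rJ b * algebraMap S A (pderiv i s) := by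
  refine ⟨Derivation.mk'
    { toFun := Dv b i
      map_add' := fun a a' => frob_ext h fun c => ?_
      map_smul' := fun z a => ?_ } fun a a' => frob_Dv_mul h i a a', fun _ => rfl,
    frob_Dv_alg h i⟩
  · have : dL b i (a + a') = dL b i a + dL b i a' := by
      ext1 k l
      simp [dL]
    rw [add_mul, map_add, Finsupp.add_apply, frob_Dv h, frob_Dv h, frob_Dv h, this, mul_add,
      Matrix.trace_add]
  · rw [RingHom.id_apply, Algebra.smul_def, Algebra.smul_def, frob_Dv_mul h,
      IsScalarTower.algebraMap_apply ℂ S A, frob_Dv_alg h]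
    simp

/-- A derivation killing the two variables is killed by the Casimir element. -/
theorem casimir_smul (h : Frob b) {M : Type} [AddCommGroup M] [Module A M] [Module ℂ M]
    [IsScalarTower ℂ A M] (w : Derivation ℂ A M) (h0 : ∀ i, w (xx A i) = 0) (a : A) :
    rJ b • w a = 0 := by
  have h1 : ∀ s : S, w (algebraMap S A s) = 0 := fun s => by
    induction s using MvPolynomial.induction_on with
    | C z => exact (congrArg w (IsScalarTower.algebraMap_apply ℂ S A z).symm).trans (w.map_algebraMap z)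
    | add p q hp hq => rw [map_add, map_add, hp, hq, add_zero]
    | mul_X p i hp => rw [map_mul, w.leibniz, hp, show w (algebraMap S A (X i)) = 0 from h0 i,
        smul_zero, smul_zero, add_zero]
  have h2 : ∀ (s : S) (u : A), w (s • u) = algebraMap S A s • w u := fun s u => by
    rw [Algebra.smul_def, w.leibniz, h1, smul_zero, add_zero]
  have h3 : ∑ k, (a * b k) • w (b (dl k)) = ∑ l, b l • w (a * b (dl l)) := by
    have e1 : ∀ k, (a * b k) • w (b (dl k)) = ∑ l, (algebraMap S A
        (b.repr (a * b k * b (dl l)) 7) * b l) • w (b (dl k)) := fun k => by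
      conv_lhs => rw [← b.sum_repr (a * b k), Finset.sum_smul]
      simp only [frob_repr h (a * b k), Algebra.smul_def]
    have e2 : ∀ l, b l • w (a * b (dl l)) = ∑ k, (algebraMap S A
        (b.repr (a * b k * b (dl l)) 7) * b l) • w (b (dl k)) := fun l => by
      conv_lhs => rw [frob_expand h (a * b (dl l)), map_sum, Finset.smul_sum]
      simp only [h2, smul_smul, mul_comm (b l), mul_right_comm a (b (dl l))]
    simp only [e1, e2]
    exact Finset.sum_comm
  simp only [w.leibniz, smul_add, smul_smul, Finset.sum_add_distrib, mul_comm (b _) a] at h3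
  rw [rJ, Finset.sum_smul]
  exact (left_eq_add.1 h3)

/-- The bracket of two elements is regular. -/
theorem bracket_dvd (h : Frob b) (hr : ∃ (r' : A) (s : S), s ≠ 0 ∧ r' * rJ b = algebraMap S A s)
    (a c : A) : rJ b ∣ Dv b 0 a * Dv b 1 c - Dv b 1 a * Dv b 0 c := by
  obtain ⟨r', s, hs, hrs⟩ := hr
  choose D hD hD' using exists_der h
  let G : Fin 2 → Matrix (Fin 8) (Fin 8) S := fun i => Matrix.of fun k j => b.repr (D i (b j)) k
  let L := Algebra.leftMulMatrix b
  have h1 : ∀ i a, L (rJ b) * dL b i a = L (Dv b i a) - (G i * L a - L a * G i) := fun i a => by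
    ext1 l j
    have e1 : a * b j = ∑ k, algebraMap S A (L a k j) * b k := by
      conv_lhs => rw [← b.sum_repr (a * b j)]
      simp only [L, Algebra.leftMulMatrix_eq_repr_mul, Algebra.smul_def]
    have e2 := congrArg (fun u => b.repr (D i u) l) e1
    have e3 : b.repr (a * D i (b j)) l = (L a * G i) l j :=
      (congrFun (Algebra.leftMulMatrix_mulVec_repr b a (D i (b j))) l).symm
    have e4 : ∀ k, b.repr (D i (algebraMap S A (L a k j) * b k)) l =
        G i l k * L a k j + L (rJ b) l k * dL b i a k j := fun k => by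
      rw [(D i).leibniz, hD', smul_eq_mul, smul_eq_mul, ← mul_assoc, mul_comm (b k * rJ b),
        ← Algebra.smul_def, ← Algebra.smul_def, map_add, map_smul, map_smul, mul_comm (b k)]
      simp only [Finsupp.add_apply, Finsupp.smul_apply, smul_eq_mul, G, L, dL, Matrix.of_apply,
        Matrix.map_apply, Algebra.leftMulMatrix_eq_repr_mul, mul_comm]
    simp only [map_sum, Finsupp.finsetSum_apply, e4, Finset.sum_add_distrib] at e2
    rw [(D i).leibniz, smul_eq_mul, smul_eq_mul, map_add, Finsupp.add_apply, e3, hD i a,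
      mul_comm (b j), ← Algebra.leftMulMatrix_eq_repr_mul, ← Matrix.mul_apply,
      ← Matrix.mul_apply] at e2
    simp only [Matrix.sub_apply]
    linear_combination -e2
  have h2 : ∀ i a, s • dL b i a =
      L (r' * Dv b i a) - (L r' * G i * L a - L a * (L r' * G i)) := fun i a => by
    rw [Algebra.smul_def, ← L.commutes, ← hrs, map_mul, mul_assoc, h1, mul_sub, mul_sub, ← map_mul,
      ← mul_assoc, ← mul_assoc, ← mul_assoc, ← map_mul, ← map_mul, mul_comm r' a]
  let M := dL b 0 a * dL b 1 c - dL b 0 c * dL b 1 a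
  have h3 : algebraMap S A s * (algebraMap S A s * ∑ k, frobTr b M (b k) • b (dl k)) =
      algebraMap S A s * (r' * (Dv b 0 a * Dv b 1 c - Dv b 1 a * Dv b 0 c)) :=
    frob_ext h fun x => by
      have e1 := frob_comm_tr L.toRingHom (L r' * G 0) (L r' * G 1) x a c (r' * Dv b 0 a)
        (r' * Dv b 1 c) (r' * Dv b 0 c) (r' * Dv b 1 a)
      simp only [AlgHom.toRingHom_eq_coe, RingHom.coe_coe, ← h2] at e1
      rw [frob_trace h] at e1
      have e2 : x * (r' * Dv b 0 a * (r' * Dv b 1 c) - r' * Dv b 0 c * (r' * Dv b 1 a)) * rJ b =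
          algebraMap S A s * (r' * (Dv b 0 a * Dv b 1 c - Dv b 1 a * Dv b 0 c)) * x := by
        rw [← hrs]
        ring
      rw [← e2, ← e1, mul_assoc, mul_assoc, ← Algebra.smul_def, ← Algebra.smul_def, map_smul,
        map_smul, Finsupp.smul_apply, Finsupp.smul_apply, frob_dual h]
      simp only [smul_mul_smul_comm, ← smul_sub, Matrix.mul_smul, Matrix.trace_smul, smul_smul]
      rfl
  refine ⟨∑ k, frobTr b M (b k) • b (dl k), (sub_eq_zero.1 (frob_tf b hs (frob_tf b hs ?_))).symm⟩
  linear_combination rJ b * h3 + algebraMap S A s *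
    (Dv b 0 a * Dv b 1 c - Dv b 1 a * Dv b 0 c) * hrs

theorem isReduced (h : Frob b) (hr : ∃ (r' : A) (s : S), s ≠ 0 ∧ r' * rJ b = algebraMap S A s) :
    IsReduced A := by
  obtain ⟨r', s, hs, hrs⟩ := hr
  refine ⟨fun v hv => frob_tf b hs ?_⟩
  have h1 : v * rJ b = 0 := frob_ext h fun c => by
    have h2 := ((Commute.all v c).isNilpotent_mul_right hv).map (Algebra.leftMulMatrix b)
    rw [mul_right_comm, ← frob_trace h, (Matrix.isNilpotent_trace_of_isNilpotent h2).eq_zero]
    simp
  rw [← hrs, mul_assoc, mul_comm (rJ b), h1, mul_zero]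

end Vale.Agent.P266
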