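import Vale.Agent.P266.Defs

/-! Sparse polynomials in two variables over `ℤ[√237]`, for computations in the kernel. -/

namespace Vale.Agent.P266

/-- A list of terms `(a - b + (c - d) ρ) x ^ i y ^ j`. -/
inductive Pl : Type
  | nil : Pl
  | cons (i j a b c d : Nat) (t : Pl) : Pl

namespace Pl

noncomputable def add (p : Pl) : Pl → Pl :=
  Pl.rec (motive := fun _ => Pl → Pl) (fun q => q)
    (fun i j a b c d t ih q =>
      Pl.rec (motive := fun _ => Pl) (cons i j a b c d t)
        (fun i' j' a' b' c' d' t' ih' =>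
          Bool.rec
            (Bool.rec (cons i' j' a' b' c' d' ih')
              (cons i j a b c d (ih (cons i' j' a' b' c' d' t')))
              (Nat.ble (Nat.add (Nat.mul i 128) j) (Nat.add (Nat.mul i' 128) j')))
            (cons i j (Nat.add a a') (Nat.add b b') (Nat.add c c') (Nat.add d d') (ih t'))
            (Bool.rec false (Nat.beq j j') (Nat.beq i i'))) q) p

noncomputable def mulT (keep : Nat → Bool) (i j a b c d : Nat) (q : Pl) : Pl :=
  Pl.rec (motive := fun _ => Pl) nil
    (fun i' j' a' b' c' d' _ ih =>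
      Bool.rec ih
        (cons (Nat.add i i') (Nat.add j j')
          (Nat.add (Nat.add (Nat.mul a a') (Nat.mul b b'))
            (Nat.mul 237 (Nat.add (Nat.mul c c') (Nat.mul d d'))))
          (Nat.add (Nat.add (Nat.mul a b') (Nat.mul b a'))
            (Nat.mul 237 (Nat.add (Nat.mul c d') (Nat.mul d c'))))
          (Nat.add (Nat.add (Nat.mul a c') (Nat.mul b d'))
            (Nat.add (Nat.mul c a') (Nat.mul d b')))
          (Nat.add (Nat.add (Nat.mul a d') (Nat.mul b c'))
            (Nat.add (Nat.mul c b') (Nat.mul d a'))) ih)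
        (keep (Nat.add (Nat.add i i') (Nat.add j j')))) q

/-- `p * q + r`. -/
noncomputable def fma (keep : Nat → Bool) (p q r : Pl) : Pl :=
  Pl.rec (motive := fun _ => Pl) r (fun _ _ _ _ _ _ _ _ =>
    Pl.rec (motive := fun _ => Pl) r (fun i j a b c d _ ih =>
      Bool.rec ih (add (mulT keep i j a b c d q) ih) (keep (Nat.add i j))) p) q

noncomputable def mul (keep : Nat → Bool) (p q : Pl) : Pl := fma keep p q nil

noncomputable def neg (p : Pl) : Pl :=
  Pl.rec (motive := fun _ => Pl) nil (fun i j a b c d _ ih => cons i j b a d c ih) p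

/-- All terms that are kept have zero coefficient. -/
noncomputable def isZ (keep : Nat → Bool) (p : Pl) : Bool :=
  Pl.rec (motive := fun _ => Bool) true
    (fun i j a b c d _ ih =>
      Bool.rec ih (Bool.rec false (Bool.rec false ih (Nat.beq c d)) (Nat.beq a b))
        (keep (Nat.add i j))) p

noncomputable def der0 (p : Pl) : Pl :=
  Pl.rec (motive := fun _ => Pl) nil (fun i j a b c d _ ih =>
    Nat.rec (motive := fun _ => Pl) ih (fun n _ =>
      cons n j (Nat.mul i a) (Nat.mul i b) (Nat.mul i c) (Nat.mul i d) ih) i) p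

noncomputable def der1 (p : Pl) : Pl :=
  Pl.rec (motive := fun _ => Pl) nil (fun i j a b c d _ ih =>
    Nat.rec (motive := fun _ => Pl) ih (fun n _ =>
      cons i n (Nat.mul j a) (Nat.mul j b) (Nat.mul j c) (Nat.mul j d) ih) j) p

/-- The value at a point, as a constant polynomial. -/
noncomputable def val (u v : Nat) (p : Pl) : Pl :=
  Pl.rec (motive := fun _ => Pl) nil (fun i j a b c d _ ih =>
    add (cons 0 0 (Nat.mul a (Nat.mul (Nat.pow u i) (Nat.pow v j)))
      (Nat.mul b (Nat.mul (Nat.pow u i) (Nat.pow v j)))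
      (Nat.mul c (Nat.mul (Nat.pow u i) (Nat.pow v j)))
      (Nat.mul d (Nat.mul (Nat.pow u i) (Nat.pow v j))) nil) ih) p

def top : Nat → Bool := fun _ => true

def upto (n : Nat) : Nat → Bool := fun d => Nat.ble d n

/-- The value at a point is zero. -/
noncomputable def vz (u v : Nat) (p : Pl) : Bool := isZ top (val u v p)

/-- A single term whose coefficient has non zero norm. -/
def nzT (p : Pl) : Bool :=
  match p with
  | cons 0 0 a b c d nil =>
    !Nat.beq (a * a + b * b + 474 * (c * d)) (2 * (a * b) + 237 * (c * c + d * d))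
  | _ => false

/-- The norm of the value at a point is not zero. -/
noncomputable def nz (u v : Nat) (p : Pl) : Bool := nzT (val u v p)

noncomputable def eqZ (keep : Nat → Bool) (p q : Pl) : Bool := isZ keep (add p (neg q))

noncomputable def sum8 (f : Nat → Pl) : Pl :=
  add (add (add (f 0) (f 1)) (add (f 2) (f 3))) (add (add (f 4) (f 5)) (add (f 6) (f 7)))

/-- `∑ k, f k * g k + r`. -/
noncomputable def dot8 (keep : Nat → Bool) (f g : Nat → Pl) (r : Pl) : Pl :=
  fma keep (f 0) (g 0) (fma keep (f 1) (g 1) (fma keep (f 2) (g 2) (fma keep (f 3) (g 3)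
    (fma keep (f 4) (g 4) (fma keep (f 5) (g 5) (fma keep (f 6) (g 6)
      (fma keep (f 7) (g 7) r)))))))

def all8 (f : Nat → Bool) : Bool :=
  f 0 && (f 1 && (f 2 && (f 3 && (f 4 && (f 5 && (f 6 && f 7))))))

/-- Lookup in a list. -/
noncomputable def nth {α : Type} (d : α) (l : List α) : Nat → α :=
  List.rec (motive := fun _ => Nat → α) (fun _ => d)
    (fun a _ ih n => Nat.rec (motive := fun _ => α) a (fun m _ => ih m) n) l

/-- `p` if `i = j` and zero otherwise. -/
noncomputable def ifq (i j : Nat) (p : Pl) : Pl :=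
  Bool.rec (motive := fun _ => Pl) nil p (Nat.beq i j)

def one : Pl := cons 0 0 1 0 0 0 nil

/-- Fold a square array along the diagonal. -/
noncomputable def sym (C : Nat → Nat → Pl) (k l : Nat) : Pl :=
  Bool.rec (motive := fun _ => Pl) nil
    (Bool.rec (motive := fun _ => Pl) (add (C k l) (C l k)) (C k k) (Nat.beq k l)) (Nat.ble k l)

/-- The coordinates of `∑ C k l • e k * e l`. -/
noncomputable def bil (keep : Nat → Bool) (T : Nat → Nat → Nat → Pl) (C : Nat → Nat → Pl)
    (m : Nat) : Pl :=
  sum8 fun k => dot8 keep (fun l => T k l m) (C k) nil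

noncomputable def dotL (keep : Nat → Bool) (L : List ((Nat → Pl) × (Nat → Pl)))
    (k l : Nat) : Pl :=
  List.rec (motive := fun _ => Pl) nil
    (fun uv _ ih => fma keep (uv.1 k) (uv.2 l) ih) L

noncomputable def negV (v : Nat → Pl) : Nat → Pl := fun k => neg (v k)

/-- The sum of the products in the list is `w`. -/
noncomputable def chk (keep : Nat → Bool) (T : Nat → Nat → Nat → Pl)
    (L : List ((Nat → Pl) × (Nat → Pl))) (w : Nat → Pl) : Bool :=
  all8 fun m => eqZ keep (bil keep T (sym (dotL keep L)) m) (w m)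

section

variable {R : Type} [CommRing R]

noncomputable def ev (x y ρ : R) (p : Pl) : R :=
  Pl.rec (motive := fun _ => R) 0
    (fun i j a b c d _ ih =>
      ((a : R) - (b : R) + ((c : R) - (d : R)) * ρ) * (x ^ i * y ^ j) + ih) p

variable {x y ρ : R}

@[simp] theorem ev_nil : ev x y ρ nil = 0 := rfl

@[simp] theorem ev_cons (i j a b c d t) :
    ev x y ρ (cons i j a b c d t) =
      ((a : R) - (b : R) + ((c : R) - (d : R)) * ρ) * (x ^ i * y ^ j) + ev x y ρ t := rfl

theorem add_nil (q : Pl) : add nil q = q := rfl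

theorem add_cons_nil (i j a b c d t) : add (cons i j a b c d t) nil = cons i j a b c d t := rfl

theorem add_cons_cons (i j a b c d t i' j' a' b' c' d' t') :
    add (cons i j a b c d t) (cons i' j' a' b' c' d' t') =
      Bool.rec
        (Bool.rec (cons i' j' a' b' c' d' (add (cons i j a b c d t) t'))
          (cons i j a b c d (add t (cons i' j' a' b' c' d' t')))
          (Nat.ble (Nat.add (Nat.mul i 128) j) (Nat.add (Nat.mul i' 128) j')))
        (cons i j (Nat.add a a') (Nat.add b b') (Nat.add c c') (Nat.add d d') (add t t'))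
        (Bool.rec false (Nat.beq j j') (Nat.beq i i')) := rfl

theorem ev_add (p q : Pl) : ev x y ρ (add p q) = ev x y ρ p + ev x y ρ q := by
  induction p generalizing q with
  | nil => rw [add_nil, ev_nil, zero_add]
  | cons i j a b c d t ih =>
    induction q with
    | nil => rw [add_cons_nil, ev_nil, add_zero]
    | cons i' j' a' b' c' d' t' ih' =>
      rw [add_cons_cons]
      cases h1 : (Bool.rec false (Nat.beq j j') (Nat.beq i i') : Bool)
      · cases h2 : Nat.ble (Nat.add (Nat.mul i 128) j) (Nat.add (Nat.mul i' 128) j')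
        · simp only [ev_cons] at ih' ⊢
          rw [ih']; ring
        · simp only [ev_cons, ih]; ring
      · cases h3 : Nat.beq i i'
        · rw [h3] at h1; cases h1
        · rw [h3] at h1
          have e1 := Nat.eq_of_beq_eq_true h3
          have e2 : j = j' := Nat.eq_of_beq_eq_true h1
          subst e1 e2
          simp only [ev_cons, ih, Nat.add_eq, Nat.cast_add]
          ring

/-- The monomials that are dropped vanish. -/
def Kill (keep : Nat → Bool) (x y : R) : Prop :=
  ∀ i j, keep (i + j) = false → x ^ i * y ^ j = 0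

theorem mulT_cons (keep i j a b c d i' j' a' b' c' d' t) :
    mulT keep i j a b c d (cons i' j' a' b' c' d' t) =
      Bool.rec (mulT keep i j a b c d t)
        (cons (Nat.add i i') (Nat.add j j')
          (Nat.add (Nat.add (Nat.mul a a') (Nat.mul b b'))
            (Nat.mul 237 (Nat.add (Nat.mul c c') (Nat.mul d d'))))
          (Nat.add (Nat.add (Nat.mul a b') (Nat.mul b a'))
            (Nat.mul 237 (Nat.add (Nat.mul c d') (Nat.mul d c'))))
          (Nat.add (Nat.add (Nat.mul a c') (Nat.mul b d'))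
            (Nat.add (Nat.mul c a') (Nat.mul d b')))
          (Nat.add (Nat.add (Nat.mul a d') (Nat.mul b c'))
            (Nat.add (Nat.mul c b') (Nat.mul d a'))) (mulT keep i j a b c d t))
        (keep (Nat.add (Nat.add i i') (Nat.add j j'))) := rfl

theorem ev_mulT {keep} (hk : Kill keep x y) (hρ : ρ * ρ = 237) (i j a b c d) (q : Pl) :
    ev x y ρ (mulT keep i j a b c d q) =
      ((a : R) - (b : R) + ((c : R) - (d : R)) * ρ) * (x ^ i * y ^ j) * ev x y ρ q := by
  induction q with
  | nil => exact (mul_zero _).symm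
  | cons i' j' a' b' c' d' t ih =>
    rw [mulT_cons]
    cases h : keep (Nat.add (Nat.add i i') (Nat.add j j'))
    · have := hk (i + i') (j + j') h
      simp only [ev_cons, ih]
      rw [pow_add, pow_add] at this
      linear_combination (-((a : R) - (b : R) + ((c : R) - (d : R)) * ρ) *
        ((a' : R) - (b' : R) + ((c' : R) - (d' : R)) * ρ)) * this
    · simp only [ev_cons, ih, Nat.add_eq, Nat.mul_eq, Nat.cast_add, Nat.cast_mul,
        Nat.cast_ofNat, pow_add]
      linear_combination
        (-((c : R) - d) * ((c' : R) - d') * (x ^ i * x ^ i' * (y ^ j * y ^ j'))) * hρ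

theorem ev_fma {keep} (hk : Kill keep x y) (hρ : ρ * ρ = 237) (p q r : Pl) :
    ev x y ρ (fma keep p q r) = ev x y ρ p * ev x y ρ q + ev x y ρ r := by
  cases q with
  | nil => change ev x y ρ r = _; simp
  | cons i' j' a' b' c' d' t' =>
    induction p with
    | nil => change ev x y ρ r = _; simp
    | cons i j a b c d t ih =>
      change ev x y ρ (Bool.rec (fma keep t (cons i' j' a' b' c' d' t') r)
        (add (mulT keep i j a b c d (cons i' j' a' b' c' d' t'))
          (fma keep t (cons i' j' a' b' c' d' t') r)) (keep (Nat.add i j))) = _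
      cases h : keep (Nat.add i j)
      · rw [ev_cons i j, hk i j h, mul_zero, zero_add]; exact ih
      · change ev x y ρ (add _ _) = _
        rw [ev_add, ev_mulT hk hρ, ih, ev_cons i j]; ring

theorem ev_mul {keep} (hk : Kill keep x y) (hρ : ρ * ρ = 237) (p q : Pl) :
    ev x y ρ (mul keep p q) = ev x y ρ p * ev x y ρ q := by
  rw [mul, ev_fma hk hρ, ev_nil, add_zero]

theorem ev_neg (p : Pl) : ev x y ρ (neg p) = - ev x y ρ p := by
  induction p with
  | nil => exact neg_zero.symm
  | cons i j a b c d t ih =>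
    change ev x y ρ (cons i j b a d c (neg t)) = _
    simp only [ev_cons, ih]; ring

theorem ev_isZ {keep} (hk : Kill keep x y) (p : Pl) (h : isZ keep p = true) : ev x y ρ p = 0 := by
  induction p with
  | nil => rfl
  | cons i j a b c d t ih =>
    change Bool.rec (motive := fun _ => Bool) (isZ keep t)
      (Bool.rec false (Bool.rec false (isZ keep t) (Nat.beq c d)) (Nat.beq a b))
      (keep (Nat.add i j)) = true at h
    rw [ev_cons]
    cases h1 : keep (Nat.add i j)
    · rw [h1] at h
      rw [hk i j h1, ih h]; ring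
    · rw [h1] at h
      cases h2 : Nat.beq a b
      · rw [h2] at h; cases h
      · cases h3 : Nat.beq c d
        · rw [h2, h3] at h; cases h
        · rw [h2, h3] at h
          rw [Nat.eq_of_beq_eq_true h2, Nat.eq_of_beq_eq_true h3, ih h]; simp

theorem map_ev {R' : Type} [CommRing R'] (φ : R →+* R') (p : Pl) :
    φ (ev x y ρ p) = ev (φ x) (φ y) (φ ρ) p := by
  induction p with
  | nil => exact map_zero φ
  | cons i j a b c d t ih =>
    simp only [ev_cons, map_add, map_sub, map_mul, map_pow, map_natCast, ih]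

theorem kill_top : Kill top x y := fun _ _ h => by cases h

theorem ev_val (u v : Nat) (p : Pl) :
    ev (u : R) (v : R) ρ (val u v p) = ev (u : R) (v : R) ρ p := by
  induction p with
  | nil => rfl
  | cons i j a b c d t ih =>
    change ev _ _ _ (add (cons 0 0 (a * (u ^ i * v ^ j)) (b * (u ^ i * v ^ j))
      (c * (u ^ i * v ^ j)) (d * (u ^ i * v ^ j)) nil) (val u v t)) = _
    rw [ev_add, ev_cons, ev_cons, ih, ev_nil]
    push_cast
    ring

theorem ev_vz {u v : Nat} {p : Pl} (h : vz u v p = true) : ev (u : R) (v : R) ρ p = 0 := by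
  rw [← ev_val, ev_isZ kill_top _ h]

theorem ev_nz {ρ : ℂ} (hρ : ρ * ρ = 237) {u v : Nat} {p : Pl} (h : nz u v p = true) :
    ev (u : ℂ) (v : ℂ) ρ p ≠ 0 := by
  rw [← ev_val]
  rw [nz] at h
  generalize val u v p = q at h
  unfold nzT at h
  split at h
  · rename_i a b c d
    intro e
    simp only [ev_cons, ev_nil, pow_zero, mul_one, add_zero] at e
    have h2 : ((a * a + b * b + 474 * (c * d) : Nat) : ℂ) =
        ((2 * (a * b) + 237 * (c * c + d * d) : Nat) : ℂ) := by
      push_cast
      linear_combination ((a : ℂ) - b - ((c : ℂ) - d) * ρ) * e + ((c : ℂ) - d) ^ 2 * hρ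
    rw [Nat.cast_injective h2, Nat.beq_refl] at h
    cases h
  · cases h

theorem ev_eqZ {keep} (hk : Kill keep x y) {p q : Pl} (h : eqZ keep p q = true) :
    ev x y ρ p = ev x y ρ q := by
  have := ev_isZ (ρ := ρ) hk _ h
  rwa [ev_add, ev_neg, add_neg_eq_zero] at this

theorem ev_sum8 (f : Nat → Pl) : ev x y ρ (sum8 f) = ∑ k : Fin 8, ev x y ρ (f k) := by
  simp only [sum8, ev_add, Fin.sum_univ_eight, add_assoc]
  rfl

theorem ev_dot8 {keep} (hk : Kill keep x y) (hρ : ρ * ρ = 237) (f g : Nat → Pl) :
    ev x y ρ (dot8 keep f g nil) = ∑ k : Fin 8, ev x y ρ (f k) * ev x y ρ (g k) := by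
  simp only [dot8, ev_fma hk hρ, Fin.sum_univ_eight, add_assoc, ev_nil, add_zero]
  rfl

theorem all8_true {f : Nat → Bool} (h : all8 f = true) (k : Fin 8) : f k = true := by
  simp only [all8, Bool.and_eq_true] at h
  obtain ⟨h0, h1, h2, h3, h4, h5, h6, h7⟩ := h
  fin_cases k
  exacts [h0, h1, h2, h3, h4, h5, h6, h7]

theorem ev_ifq (i j : Nat) (p : Pl) :
    ev x y ρ (ifq i j p) = if i = j then ev x y ρ p else 0 := by
  unfold ifq
  cases h : Nat.beq i j
  · rw [if_neg (Nat.ne_of_beq_eq_false h)]; rfl
  · rw [if_pos (Nat.eq_of_beq_eq_true h)]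

theorem ev_one : ev x y ρ one = 1 := by simp [one]

theorem ev_sym (C : Nat → Nat → Pl) (k l : Nat) : ev x y ρ (sym C k l) =
    (if k ≤ l then ev x y ρ (C k l) else 0) + if k < l then ev x y ρ (C l k) else 0 := by
  unfold sym
  cases h : Nat.ble k l
  · have : ¬ k ≤ l := fun e => by rw [← Nat.ble_eq, h] at e; cases e
    rw [if_neg this, if_neg (fun e => this e.le), add_zero]; rfl
  · have := Nat.le_of_ble_eq_true h
    rw [if_pos this]
    cases h' : Nat.beq k l
    · rw [if_pos (lt_of_le_of_ne this (Nat.ne_of_beq_eq_false h'))]; exact ev_add _ _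
    · have e := Nat.eq_of_beq_eq_true h'
      subst e
      rw [if_neg (lt_irrefl _), add_zero]

/-- The element with the given coordinates. -/
noncomputable def evV (x y ρ : R) (β : Fin 8 → R) (v : Nat → Pl) : R :=
  ∑ k : Fin 8, ev x y ρ (v k) * β k

variable {β : Fin 8 → R} {T : Nat → Nat → Nat → Pl}

theorem map_evV {R' : Type} [CommRing R'] (φ : R →+* R') (v : Nat → Pl) :
    φ (evV x y ρ β v) = evV (φ x) (φ y) (φ ρ) (fun k => φ (β k)) v := by
  simp only [evV, map_sum, map_mul, map_ev]

theorem evV_negV (v : Nat → Pl) : evV x y ρ β (negV v) = - evV x y ρ β v := by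
  simp only [evV, negV, ev_neg, neg_mul, Finset.sum_neg_distrib]

theorem evV_bil {keep} (hk : Kill keep x y) (hρ : ρ * ρ = 237)
    (hT : ∀ k l : Fin 8, β k * β l = evV x y ρ β (T k l)) (C : Nat → Nat → Pl) :
    evV x y ρ β (bil keep T (sym C)) =
      ∑ k : Fin 8, ∑ l : Fin 8, ev x y ρ (C k l) * (β k * β l) := by
  have h1 : evV x y ρ β (bil keep T (sym C)) =
      ∑ k : Fin 8, ∑ l : Fin 8, ev x y ρ (sym C k l) * (β k * β l) := by
    simp only [hT, evV, bil, ev_sum8, ev_dot8 hk hρ, Finset.sum_mul, Finset.mul_sum]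
    rw [Finset.sum_comm]
    refine Finset.sum_congr rfl fun _ _ => ?_
    rw [Finset.sum_comm]
    exact Finset.sum_congr rfl fun _ _ => Finset.sum_congr rfl fun _ _ => by ring
  simp only [h1, ev_sym, add_mul, Finset.sum_add_distrib]
  rw [Finset.sum_comm (f := fun k l : Fin 8 =>
    (if (k : Nat) < l then ev x y ρ (C l k) else 0) * (β k * β l)), ← Finset.sum_add_distrib]
  refine Finset.sum_congr rfl fun k _ => ?_
  rw [← Finset.sum_add_distrib]
  refine Finset.sum_congr rfl fun l _ => ?_
  by_cases e : (k : Nat) ≤ l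
  · rw [if_pos e, if_neg (not_lt.2 e)]; ring
  · rw [if_neg e, if_pos (not_le.1 e)]; ring

theorem evV_dot {keep} (hk : Kill keep x y) (hρ : ρ * ρ = 237)
    (hT : ∀ k l : Fin 8, β k * β l = evV x y ρ β (T k l))
    (L : List ((Nat → Pl) × (Nat → Pl))) :
    evV x y ρ β (bil keep T (sym (dotL keep L))) =
      (L.map fun uv => evV x y ρ β uv.1 * evV x y ρ β uv.2).sum := by
  rw [evV_bil hk hρ hT]
  induction L with
  | nil => exact Finset.sum_eq_zero fun _ _ => Finset.sum_eq_zero fun _ _ => zero_mul _
  | cons uv L ih =>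
    rw [List.map_cons, List.sum_cons, ← ih, evV, evV, Finset.sum_mul_sum,
      ← Finset.sum_add_distrib]
    refine Finset.sum_congr rfl fun k _ => ?_
    rw [← Finset.sum_add_distrib]
    refine Finset.sum_congr rfl fun l _ => ?_
    change ev x y ρ (fma keep (uv.1 k) (uv.2 l) (dotL keep L k l)) * _ = _
    rw [ev_fma hk hρ]; ring

theorem chk_sound {keep} (hk : Kill keep x y) (hρ : ρ * ρ = 237)
    (hT : ∀ k l : Fin 8, β k * β l = evV x y ρ β (T k l))
    {L : List ((Nat → Pl) × (Nat → Pl))} {w : Nat → Pl} (h : chk keep T L w = true) :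
    (L.map fun uv => evV x y ρ β uv.1 * evV x y ρ β uv.2).sum = evV x y ρ β w := by
  rw [← evV_dot hk hρ hT]
  exact Finset.sum_congr rfl fun m _ => by rw [ev_eqZ hk (all8_true h m)]

theorem evV_ifq (hβ : β 0 = 1) (p : Pl) : evV x y ρ β (fun m => ifq m 0 p) = ev x y ρ p := by
  rw [evV, Finset.sum_eq_single (0 : Fin 8)]
  · rw [hβ, mul_one, ev_ifq]; exact if_pos rfl
  · intro k _ hk
    rw [ev_ifq, if_neg (fun e : (k : Nat) = 0 => hk (Fin.ext e)), zero_mul]
  · simp

end

open MvPolynomial in
theorem pderiv0_ev (ρ : ℂ) (p : Pl) :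
    pderiv (0 : Fin 2) (ev (X 0 : S) (X 1) (C ρ) p) = ev (X 0) (X 1) (C ρ) (der0 p) := by
  induction p with
  | nil => exact map_zero _
  | cons i j a b c d t ih =>
    have : ((a : S) - (b : S) + ((c : S) - (d : S)) * C ρ) =
        C ((a : ℂ) - (b : ℂ) + ((c : ℂ) - (d : ℂ)) * ρ) := by simp
    rw [ev_cons, map_add, ih, this, pderiv_C_mul, ← this]
    cases i with
    | zero =>
      change _ = ev (X 0 : S) (X 1) (C ρ) (der0 t)
      simp [Derivation.leibniz_pow]
    | succ i =>
      change _ = ev (X 0 : S) (X 1) (C ρ)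
        (cons i j ((i + 1) * a) ((i + 1) * b) ((i + 1) * c) ((i + 1) * d) (der0 t))
      rw [ev_cons]
      simp [Derivation.leibniz_pow]
      ring

open MvPolynomial in
theorem pderiv1_ev (ρ : ℂ) (p : Pl) :
    pderiv (1 : Fin 2) (ev (X 0 : S) (X 1) (C ρ) p) = ev (X 0) (X 1) (C ρ) (der1 p) := by
  induction p with
  | nil => exact map_zero _
  | cons i j a b c d t ih =>
    have : ((a : S) - (b : S) + ((c : S) - (d : S)) * C ρ) =
        C ((a : ℂ) - (b : ℂ) + ((c : ℂ) - (d : ℂ)) * ρ) := by simp
    rw [ev_cons, map_add, ih, this, pderiv_C_mul, ← this]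
    cases j with
    | zero =>
      change _ = ev (X 0 : S) (X 1) (C ρ) (der1 t)
      simp [Derivation.leibniz_pow]
    | succ j =>
      change _ = ev (X 0 : S) (X 1) (C ρ)
        (cons i j ((j + 1) * a) ((j + 1) * b) ((j + 1) * c) ((j + 1) * d) (der1 t))
      rw [ev_cons]
      simp [Derivation.leibniz_pow]
      ring

end Pl

end Vale.Agent.P266
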