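import Vale.Agent.P266.Check
import Vale.Agent.P266.DataT

namespace Vale.Agent.P266

theorem run_one : ckOne TT = true := by decide +kernel
theorem run_loc : ckLoc TT = true := by decide +kernel
theorem run_small : ckSmall TT = true := by decide +kernel
theorem run_c12 : ckComm TT 1 2 = true := by decide +kernel
theorem run_c13 : ckComm TT 1 3 = true := by decide +kernel
theorem run_c23 : ckComm TT 2 3 = true := by decide +kernel
theorem run_a12 : ckAss TT 1 2 = true := by decide +kernel
theorem run_a11 : ckAss TT 1 1 = true := by decide +kernel
theorem run_a23 : ckAss TT 2 3 = true := by decide +kernel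
theorem run_a14 : ckAss TT 1 4 = true := by decide +kernel
theorem run_g : ckG TT GG = true := by decide +kernel

end Vale.Agent.P266
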