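import Vale.Agent.P266.Check
import Vale.Agent.P266.DataT
import Vale.Agent.P266.DataC

namespace Vale.Agent.P266

theorem run_m0 : ckMon TT GG 1 13 d0 c00 c01 c02 = true := by decide +kernel
theorem run_m1 : ckMon TT GG 6 8 d1 c10 c11 c12 = true := by decide +kernel
theorem run_m2 : ckMon TT GG 8 6 d2 c20 c21 c22 = true := by decide +kernel
theorem run_m3 : ckMon TT GG 13 1 d3 c30 c31 c32 = true := by decide +kernel
theorem run_m4 : ckMon TT GG 0 15 d4 c40 c41 c42 = true := by decide +kernel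
theorem run_m5 : ckMon TT GG 15 0 d5 c50 c51 c52 = true := by decide +kernel
theorem run_m6 : ckMon TT GG 5 12 d6 c60 c61 c62 = true := by decide +kernel
theorem run_m7 : ckMon TT GG 12 5 d7 c70 c71 c72 = true := by decide +kernel
theorem run_fib : ckFib TT GG fu fd = true := by decide +kernel

theorem run_mon :
    ∀ p ∈ [(1, 13), (6, 8), (8, 6), (13, 1), (0, 15), (15, 0), (5, 12), (12, 5)],
      ∃ c α β γ, ckMon TT GG p.1 p.2 c α β γ = true := by
  simp only [List.forall_mem_cons, List.not_mem_nil, IsEmpty.forall_iff, implies_true, and_true]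
  exact ⟨⟨_, _, _, _, run_m0⟩, ⟨_, _, _, _, run_m1⟩, ⟨_, _, _, _, run_m2⟩, ⟨_, _, _, _, run_m3⟩,
    ⟨_, _, _, _, run_m4⟩, ⟨_, _, _, _, run_m5⟩, ⟨_, _, _, _, run_m6⟩, ⟨_, _, _, _, run_m7⟩⟩

end Vale.Agent.P266
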