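import Vale.Agent.P266.Check
import Vale.Agent.P266.DataT
import Vale.Agent.P266.DataV

namespace Vale.Agent.P266

theorem run_u : ckU u00 u01 u02 u10 u11 u12 u20 u21 u22 = true := by decide +kernel
theorem run_b0 : ckHB TT GG v1 w2 v2 w1 u00 u01 u02 = true := by decide +kernel
theorem run_b1 : ckHB TT GG v2 w0 v0 w2 u10 u11 u12 = true := by decide +kernel
theorem run_b2 : ckHB TT GG v0 w1 v1 w0 u20 u21 u22 = true := by decide +kernel

end Vale.Agent.P266
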